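import Mathlib

/-!
Stokes' theorem on the 4-cube for a homogeneous 3-cocycle (abstract form).
-/

namespace Vale.Agent.P178.H873

section AbsCube

variable {V N : Type*} [AddCommGroup N]

/-- signed sum of `a` over the six maximal chains of the 3-cube -/
def cubeFun (a : V → V → V → V → N) (S : Bool → Bool → Bool → V) : N :=
  a (S false false false) (S true false false) (S true true false) (S true true true)
  - a (S false false false) (S true false false) (S true false true) (S true true true)
  - a (S false false false) (S false true false) (S true true false) (S true true true)
  + a (S false false false) (S false true false) (S false true true) (S true true true)
  + a (S false false false) (S false false true) (S true false true) (S true true true)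
  - a (S false false false) (S false false true) (S false true true) (S true true true)

/-- the homogeneous coboundary -/
def cob5 (a : V → V → V → V → N) (v0 v1 v2 v3 v4 : V) : N :=
  a v1 v2 v3 v4 - a v0 v2 v3 v4 + a v0 v1 v3 v4 - a v0 v1 v2 v4 + a v0 v1 v2 v3

/-- **Stokes on the 4-cube** -/
theorem cubeFun_stokes (a : V → V → V → V → N)
    (ha : ∀ v0 v1 v2 v3 v4, a v1 v2 v3 v4 - a v0 v2 v3 v4 + a v0 v1 v3 v4 - a v0 v1 v2 v4
      + a v0 v1 v2 v3 = 0)
    (T : Bool → Bool → Bool → Bool → V) :
    (cubeFun a (fun x y z => T true x y z) - cubeFun a (fun x y z => T false x y z))
    - (cubeFun a (fun x y z => T x true y z) - cubeFun a (fun x y z => T x false y z))
    + (cubeFun a (fun x y z => T x y true z) - cubeFun a (fun x y z => T x y false z))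
    - (cubeFun a (fun x y z => T x y z true) - cubeFun a (fun x y z => T x y z false)) = 0 := by
  have e : (cubeFun a (fun x y z => T true x y z) - cubeFun a (fun x y z => T false x y z))
    - (cubeFun a (fun x y z => T x true y z) - cubeFun a (fun x y z => T x false y z))
    + (cubeFun a (fun x y z => T x y true z) - cubeFun a (fun x y z => T x y false z))
    - (cubeFun a (fun x y z => T x y z true) - cubeFun a (fun x y z => T x y z false)) =
      cob5 a (T false false false false) (T true false false false) (T true true false false) (T true true true false) (T true true true true)
      - cob5 a (T false false false false) (T true false false false) (T true true false false) (T true true false true) (T true true true true)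
      - cob5 a (T false false false false) (T true false false false) (T true false true false) (T true true true false) (T true true true true)
      + cob5 a (T false false false false) (T true false false false) (T true false true false) (T true false true true) (T true true true true)
      + cob5 a (T false false false false) (T true false false false) (T true false false true) (T true true false true) (T true true true true)
      - cob5 a (T false false false false) (T true false false false) (T true false false true) (T true false true true) (T true true true true)
      - cob5 a (T false false false false) (T false true false false) (T true true false false) (T true true true false) (T true true true true)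
      + cob5 a (T false false false false) (T false true false false) (T true true false false) (T true true false true) (T true true true true)
      + cob5 a (T false false false false) (T false true false false) (T false true true false) (T true true true false) (T true true true true)
      - cob5 a (T false false false false) (T false true false false) (T false true true false) (T false true true true) (T true true true true)
      - cob5 a (T false false false false) (T false true false false) (T false true false true) (T true true false true) (T true true true true)
      + cob5 a (T false false false false) (T false true false false) (T false true false true) (T false true true true) (T true true true true)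
      + cob5 a (T false false false false) (T false false true false) (T true false true false) (T true true true false) (T true true true true)
      - cob5 a (T false false false false) (T false false true false) (T true false true false) (T true false true true) (T true true true true)
      - cob5 a (T false false false false) (T false false true false) (T false true true false) (T true true true false) (T true true true true)
      + cob5 a (T false false false false) (T false false true false) (T false true true false) (T false true true true) (T true true true true)
      + cob5 a (T false false false false) (T false false true false) (T false false true true) (T true false true true) (T true true true true)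
      - cob5 a (T false false false false) (T false false true false) (T false false true true) (T false true true true) (T true true true true)
      - cob5 a (T false false false false) (T false false false true) (T true false false true) (T true true false true) (T true true true true)
      + cob5 a (T false false false false) (T false false false true) (T true false false true) (T true false true true) (T true true true true)
      + cob5 a (T false false false false) (T false false false true) (T false true false true) (T true true false true) (T true true true true)
      - cob5 a (T false false false false) (T false false false true) (T false true false true) (T false true true true) (T true true true true)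
      - cob5 a (T false false false false) (T false false false true) (T false false true true) (T true false true true) (T true true true true)
      + cob5 a (T false false false false) (T false false false true) (T false false true true) (T false true true true) (T true true true true) := by
    simp only [cubeFun, cob5]
    abel
  have h0 : ∀ v0 v1 v2 v3 v4, cob5 a v0 v1 v2 v3 v4 = 0 := ha
  rw [e]
  simp only [h0, sub_zero, add_zero]

/-- the family does not depend on the first direction -/
theorem cubeFun_of_indep0 (a : V → V → V → V → N) (h0 : ∀ v w x, a v v w x = 0)
    (h1 : ∀ v w x, a v w w x = 0) (h2 : ∀ v w x, a v w x x = 0)
    (S : Bool → Bool → Bool → V) (h : ∀ x y z, S x y z = S false y z) : cubeFun a S = 0 := by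
  have : ∀ b c, S true b c = S false b c := fun b c => h true b c
  simp only [cubeFun, this, h0, h1, h2, sub_zero, add_zero]

/-- the family does not depend on the second direction -/
theorem cubeFun_of_indep1 (a : V → V → V → V → N) (h0 : ∀ v w x, a v v w x = 0)
    (h1 : ∀ v w x, a v w w x = 0) (h2 : ∀ v w x, a v w x x = 0)
    (S : Bool → Bool → Bool → V) (h : ∀ x y z, S x y z = S x false z) : cubeFun a S = 0 := by
  have : ∀ b c, S b true c = S b false c := fun b c => h b true c
  simp only [cubeFun, this, h0, h1, h2, sub_zero, add_zero]

/-- the family does not depend on the last direction -/
theorem cubeFun_of_indep2 (a : V → V → V → V → N) (h0 : ∀ v w x, a v v w x = 0)
    (h1 : ∀ v w x, a v w w x = 0) (h2 : ∀ v w x, a v w x x = 0)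
    (S : Bool → Bool → Bool → V) (h : ∀ x y z, S x y z = S x y false) : cubeFun a S = 0 := by
  have : ∀ b c, S b c true = S b c false := fun b c => h b c true
  simp only [cubeFun, this, h0, h1, h2, sub_zero, add_zero]

/-- additivity -/
theorem cubeFun_add {V' V'' : Type*} (a : V → V → V → V → N) (a' : V' → V' → V' → V' → N)
    (a'' : V'' → V'' → V'' → V'' → N) (S : Bool → Bool → Bool → V) (S' : Bool → Bool → Bool → V')
    (S'' : Bool → Bool → Bool → V'')
    (h : ∀ x y z x' y' z' x₂ y₂ z₂ x₃ y₃ z₃,
      a (S x y z) (S x' y' z') (S x₂ y₂ z₂) (S x₃ y₃ z₃) =
      a' (S' x y z) (S' x' y' z') (S' x₂ y₂ z₂) (S' x₃ y₃ z₃) +
      a'' (S'' x y z) (S'' x' y' z') (S'' x₂ y₂ z₂) (S'' x₃ y₃ z₃)) :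
    cubeFun a S = cubeFun a' S' + cubeFun a'' S'' := by
  simp only [cubeFun, h]
  abel

end AbsCube

end Vale.Agent.P178.H873
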