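import Vale.Agent.P178.H873.St

/-!
`H₁(G; ℤ) = 0` and `H₂(G; ℤ) = 0` in terms of the (unnormalized) bar complex, for a perfect group
all of whose central extensions split.
-/

namespace Vale.Agent.P178.H873

open scoped commutatorElement

variable {G : Type*} [Group G]

/-- `[g|h] ↦ [h] - [gh] + [g]` -/
noncomputable def bar2 (G : Type*) [Group G] : (G × G →₀ ℤ) →+ (G →₀ ℤ) :=
  Finsupp.liftAddHom fun p => AddMonoidHom.mk' (fun n : ℤ =>
    Finsupp.single p.2 n - Finsupp.single (p.1 * p.2) n + Finsupp.single p.1 n)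
    (by intro a b; simp only [Finsupp.single_add]; abel)

/-- `[g|h|k] ↦ [h|k] - [gh|k] + [g|hk] - [g|h]` -/
noncomputable def bar3 (G : Type*) [Group G] : (G × G × G →₀ ℤ) →+ (G × G →₀ ℤ) :=
  Finsupp.liftAddHom fun p => AddMonoidHom.mk' (fun n : ℤ =>
    Finsupp.single (p.2.1, p.2.2) n - Finsupp.single (p.1 * p.2.1, p.2.2) n
      + Finsupp.single (p.1, p.2.1 * p.2.2) n - Finsupp.single (p.1, p.2.1) n)
    (by intro a b; simp only [Finsupp.single_add]; abel)

@[simp] theorem bar2_single (g h : G) (n : ℤ) : bar2 G (Finsupp.single (g, h) n) =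
    Finsupp.single h n - Finsupp.single (g * h) n + Finsupp.single g n := by
  simp [bar2]

@[simp] theorem bar3_single (g h k : G) (n : ℤ) : bar3 G (Finsupp.single (g, h, k) n) =
    Finsupp.single (h, k) n - Finsupp.single (g * h, k) n
      + Finsupp.single (g, h * k) n - Finsupp.single (g, h) n := by
  simp [bar3]

/-- a perfect group has `H₁ = 0` -/
theorem bar2_surjective (h : commutator G = ⊤) : Function.Surjective (bar2 G) := by
  -- the map `G → (G →₀ ℤ) / im` is a homomorphism to an abelian group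
  let Q := (G →₀ ℤ) ⧸ (bar2 G).range
  let φ : G →* Multiplicative Q :=
    { toFun := fun g => Multiplicative.ofAdd (QuotientAddGroup.mk (Finsupp.single g (1 : ℤ)) : Q)
      map_one' := by
        rw [← ofAdd_zero]
        congr 1
        rw [QuotientAddGroup.eq_zero_iff]
        exact ⟨Finsupp.single (1, 1) 1, by simp⟩
      map_mul' := by
        intro a b
        rw [← ofAdd_add]
        congr 1
        rw [← QuotientAddGroup.mk_add, QuotientAddGroup.eq]
        refine ⟨Finsupp.single (a, b) 1, ?_⟩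
        rw [bar2_single]; abel }
  have hφ : ∀ g, φ g = 1 := by
    intro g
    have hg : g ∈ commutator G := by rw [h]; trivial
    have hker : commutator G ≤ φ.ker := by
      rw [commutator_def, Subgroup.commutator_le]
      intro a _ b _
      rw [MonoidHom.mem_ker, map_commutatorElement, commutatorElement_eq_one_iff_mul_comm, mul_comm]
    exact hker hg
  intro c
  have hc : (QuotientAddGroup.mk c : Q) = 0 := by
    induction c using Finsupp.induction_linear with
    | zero => rfl
    | add a b ha hb => rw [QuotientAddGroup.mk_add, ha, hb, add_zero]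
    | single g n =>
      have h1 : (QuotientAddGroup.mk (Finsupp.single g (1 : ℤ)) : Q) = 0 :=
        congrArg Multiplicative.toAdd (hφ g)
      have h2 : (Finsupp.single g n : G →₀ ℤ) = n • Finsupp.single g (1 : ℤ) := by simp
      rw [h2, QuotientAddGroup.mk_zsmul, h1, smul_zero]
  obtain ⟨d, hd⟩ := (QuotientAddGroup.eq_zero_iff c).1 hc
  exact ⟨d, hd⟩

section H2

/-- chains modulo boundaries -/
abbrev CB (G : Type*) [Group G] : Type _ := (G × G →₀ ℤ) ⧸ (bar3 G).range

/-- the universal cocycle -/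
noncomputable def uc (g h : G) : CB G := QuotientAddGroup.mk (Finsupp.single (g, h) (1 : ℤ))

theorem uc_cocycle (g h k : G) : uc g h + uc (g * h) k = uc h k + uc g (h * k) := by
  have h0 : (QuotientAddGroup.mk (bar3 G (Finsupp.single (g, h, k) 1)) : CB G) = 0 :=
    (QuotientAddGroup.eq_zero_iff _).2 ⟨_, rfl⟩
  rw [bar3_single] at h0
  simp only [QuotientAddGroup.mk_add, QuotientAddGroup.mk_sub] at h0
  change uc h k - uc (g * h) k + uc g (h * k) - uc g h = 0 at h0
  have := sub_eq_zero.1 h0
  rw [← this]; abel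

theorem uc_one_left (g : G) : uc 1 g = uc (1 : G) 1 := by
  have := uc_cocycle (1 : G) 1 g
  rw [one_mul, one_mul] at this
  exact (add_right_cancel this).symm

theorem uc_one_right (g : G) : uc g 1 = uc (1 : G) 1 := by
  have := uc_cocycle g 1 (1 : G)
  rw [mul_one, mul_one] at this
  exact add_right_cancel this

/-- the central extension given by the universal cocycle -/
structure Ext (G : Type*) [Group G] where
  /-- image in the group -/
  g : G
  /-- central coordinate -/
  c : CB G

namespace Ext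

@[ext] theorem ext' {a b : Ext G} (h1 : a.g = b.g) (h2 : a.c = b.c) : a = b := by
  cases a; cases b; simp_all

noncomputable instance : Mul (Ext G) := ⟨fun a b => ⟨a.g * b.g, a.c + b.c + uc a.g b.g⟩⟩
noncomputable instance : One (Ext G) := ⟨⟨1, -uc 1 1⟩⟩
noncomputable instance : Inv (Ext G) :=
  ⟨fun a => ⟨a.g⁻¹, -a.c - uc a.g⁻¹ a.g - uc 1 1⟩⟩

theorem mul_g (a b : Ext G) : (a * b).g = a.g * b.g := rfl
theorem mul_c (a b : Ext G) : (a * b).c = a.c + b.c + uc a.g b.g := rfl
theorem one_g : (1 : Ext G).g = 1 := rfl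
theorem one_c : (1 : Ext G).c = -uc 1 1 := rfl
theorem inv_g (a : Ext G) : (a⁻¹).g = a.g⁻¹ := rfl
theorem inv_c (a : Ext G) : (a⁻¹).c = -a.c - uc a.g⁻¹ a.g - uc 1 1 := rfl

noncomputable instance : Group (Ext G) :=
  Group.ofLeftAxioms
    (by
      intro a b c
      refine ext' (by simp only [mul_g, mul_assoc]) ?_
      simp only [mul_c, mul_g]
      have := uc_cocycle a.g b.g c.g
      calc a.c + b.c + uc a.g b.g + c.c + uc (a.g * b.g) c.g
          = a.c + b.c + c.c + (uc a.g b.g + uc (a.g * b.g) c.g) := by abel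
        _ = a.c + b.c + c.c + (uc b.g c.g + uc a.g (b.g * c.g)) := by rw [this]
        _ = a.c + (b.c + c.c + uc b.g c.g) + uc a.g (b.g * c.g) := by abel)
    (by
      intro a
      refine ext' (by simp only [mul_g, one_g, one_mul]) ?_
      simp only [mul_c, one_c, one_g, uc_one_left]
      abel)
    (by
      intro a
      refine ext' (by simp only [mul_g, inv_g, one_g, inv_mul_cancel]) ?_
      simp only [mul_c, inv_c, inv_g, one_c]
      abel)

/-- the projection -/
noncomputable def proj (G : Type*) [Group G] : Ext G →* G where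
  toFun := Ext.g
  map_one' := rfl
  map_mul' _ _ := rfl

theorem proj_surjective : Function.Surjective (proj G) := fun g => ⟨⟨g, 0⟩, rfl⟩

theorem ker_proj_le : (proj G).ker ≤ Subgroup.center (Ext G) := by
  intro a ha
  have ha : a.g = 1 := ha
  rw [Subgroup.mem_center_iff]
  intro b
  refine ext' ?_ ?_
  · simp only [mul_g, ha, mul_one, one_mul]
  · simp only [mul_c, ha, uc_one_left, uc_one_right]
    abel

end Ext

/-- if all central extensions of `G` split, then `H₂(G; ℤ) = 0` (bar complex) -/
theorem exists_bar3_of_split {G : Type*} [Group G]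
    (hs : ∃ s : G →* Ext G, (Ext.proj G).comp s = MonoidHom.id G)
    (z : G × G →₀ ℤ) (hz : bar2 G z = 0) : ∃ w, bar3 G w = z := by
  obtain ⟨s, hs⟩ := hs
  have hsg : ∀ g, (s g).g = g := fun g => DFunLike.congr_fun hs g
  -- the primitive
  let Φ : (G →₀ ℤ) →+ CB G := Finsupp.liftAddHom fun g =>
    (AddMonoidHom.mk' (fun n : ℤ => n • (s g).c) (by intro a b; exact add_zsmul _ _ _))
  have hΦ : ∀ g (n : ℤ), Φ (Finsupp.single g n) = n • (s g).c := by
    intro g n; simp [Φ]
  have key : ∀ c : G × G →₀ ℤ, (QuotientAddGroup.mk c : CB G) = - Φ (bar2 G c) := by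
    intro c
    induction c using Finsupp.induction_linear with
    | zero => simp
    | add a b ha hb => rw [QuotientAddGroup.mk_add, ha, hb, map_add, map_add, neg_add]
    | single p n =>
      obtain ⟨g, h⟩ := p
      have h1 : (s (g * h)).c = (s g).c + (s h).c + uc g h := by
        rw [map_mul, Ext.mul_c, hsg, hsg]
      have h2 : (Finsupp.single (g, h) n : G × G →₀ ℤ) = n • Finsupp.single (g, h) (1 : ℤ) := by
        simp
      rw [bar2_single, map_add, map_sub, hΦ, hΦ, hΦ, h1, h2, QuotientAddGroup.mk_zsmul]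
      change n • uc g h = _
      rw [zsmul_add, zsmul_add]
      abel
  have h0 := key z
  rw [hz, map_zero, neg_zero] at h0
  obtain ⟨w, hw⟩ := (QuotientAddGroup.eq_zero_iff z).1 h0
  exact ⟨w, hw⟩

end H2

/-- `H₂(St ι A; ℤ) = 0` -/
theorem St.exists_bar3 {ι : Type*} {A : Type*} [Ring A]
    (h4 : ∀ i j k l : ι, ∃ q, q ≠ i ∧ q ≠ j ∧ q ≠ k ∧ q ≠ l)
    (z : St ι A × St ι A →₀ ℤ) (hz : bar2 (St ι A) z = 0) : ∃ w, bar3 (St ι A) w = z :=
  exists_bar3_of_split (St.central_split h4 Ext.proj_surjective Ext.ker_proj_le) z hz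

/-- `H₁(St ι A; ℤ) = 0` -/
theorem St.bar2_surjective {ι : Type*} {A : Type*} [Ring A]
    (h4 : ∀ i j k l : ι, ∃ q, q ≠ i ∧ q ≠ j ∧ q ≠ k ∧ q ≠ l) :
    Function.Surjective (bar2 (St ι A)) :=
  H873.bar2_surjective (St.commutator_eq_top fun i j => by
    obtain ⟨q, h1, h2, -, -⟩ := h4 i j j j
    exact ⟨q, h1, h2⟩)

/-- five elements suffice -/
theorem four_of_card {ι : Type*} [Fintype ι] (h : 5 ≤ Fintype.card ι) (i j k l : ι) :
    ∃ q, q ≠ i ∧ q ≠ j ∧ q ≠ k ∧ q ≠ l := by
  classical
  by_contra hcon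
  push Not at hcon
  have : (Finset.univ : Finset ι) ⊆ {i, j, k, l} := by
    intro q _
    simp only [Finset.mem_insert, Finset.mem_singleton]
    by_cases h1 : q = i
    · exact Or.inl h1
    by_cases h2 : q = j
    · exact Or.inr (Or.inl h2)
    by_cases h3 : q = k
    · exact Or.inr (Or.inr (Or.inl h3))
    exact Or.inr (Or.inr (Or.inr (hcon q h1 h2 h3)))
  have h5 := Finset.card_le_card this
  have h6 : ({i, j, k, l} : Finset ι).card ≤ 4 := Finset.card_le_four
  rw [Finset.card_univ] at h5
  omega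

end Vale.Agent.P178.H873
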