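import Vale.Agent.P178.H873.Stokes
import Vale.Agent.P178.H873.AbsStokes

/-!
Connections on modules with values in the fibre `k ⊗ M`, and the trace 3-cochain of four triples
of connections.
-/

open scoped TensorProduct

namespace Vale.Agent.P178.H873

section Conn

variable {R k : Type*} [CommRing R] [Field k] [Algebra R k]

/-- a connection on `M` relative to a derivation `D : R → k` -/
structure Conn (D : Derivation ℤ R k) (M : Type*) [AddCommGroup M] [Module R M] where
  toFun : M → k ⊗[R] M
  add' : ∀ x y, toFun (x + y) = toFun x + toFun y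
  leib' : ∀ (r : R) (x : M), toFun (r • x) = D r ⊗ₜ[R] x + r • toFun x

namespace Conn

variable {D : Derivation ℤ R k} {M : Type*} [AddCommGroup M] [Module R M]

theorem ext_fun {v w : Conn D M} (h : ∀ x, v.toFun x = w.toFun x) : v = w := by
  cases v
  cases w
  congr
  exact funext h

theorem map_zero' (v : Conn D M) : v.toFun 0 = 0 := by
  have := v.add' 0 0
  rw [add_zero] at this
  exact left_eq_add.1 this

/-- the difference of two connections, as a linear map on the fibre -/
noncomputable def diff (v w : Conn D M) : Module.End k (k ⊗[R] M) :=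
  LinearMap.liftBaseChange k
    { toFun := fun x => w.toFun x - v.toFun x
      map_add' := fun x y => by
        rw [w.add', v.add']
        abel
      map_smul' := fun r x => by
        rw [w.leib', v.leib', RingHom.id_apply, smul_sub]
        abel }

theorem diff_tmul (v w : Conn D M) (a : k) (x : M) :
    diff v w (a ⊗ₜ x) = a • (w.toFun x - v.toFun x) := rfl

theorem diff_add (u v w : Conn D M) : diff u v + diff v w = diff u w := by
  refine LinearMap.ext fun z => ?_
  induction z using TensorProduct.induction_on with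
  | zero => simp
  | tmul a x =>
    rw [LinearMap.add_apply, diff_tmul, diff_tmul, diff_tmul, ← smul_add]
    congr 1
    abel
  | add x y hx hy => rw [map_add, hx, hy, map_add]

theorem diff_self (v : Conn D M) : diff v v = 0 := by
  refine LinearMap.ext fun z => ?_
  induction z using TensorProduct.induction_on with
  | zero => simp
  | tmul a x => rw [diff_tmul, sub_self, smul_zero, LinearMap.zero_apply]
  | add x y hx hy => rw [map_add, hx, hy, map_add]

/-- the connection `v` on `M` and the connection `w` on `N` are compatible with `f : M → N` -/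
def Rel {N : Type*} [AddCommGroup N] [Module R N] (f : M →ₗ[R] N) (v : Conn D M)
    (w : Conn D N) : Prop := ∀ x, w.toFun (f x) = f.baseChange k (v.toFun x)

theorem Rel.diff {N : Type*} [AddCommGroup N] [Module R N] {f : M →ₗ[R] N} {v v' : Conn D M}
    {w w' : Conn D N} (h : Rel f v w) (h' : Rel f v' w') :
    (Conn.diff w w') ∘ₗ f.baseChange k = f.baseChange k ∘ₗ Conn.diff v v' := by
  refine LinearMap.ext fun z => ?_
  induction z using TensorProduct.induction_on with
  | zero => simp
  | tmul a x =>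
    rw [LinearMap.comp_apply, LinearMap.comp_apply, LinearMap.baseChange_tmul, diff_tmul,
      diff_tmul, map_smul, map_sub, h x, h' x]
  | add x y hx hy => rw [map_add, hx, hy, map_add]

/-- connections exist on projective modules -/
theorem nonempty_of_projective (D : Derivation ℤ R k) (M : Type*) [AddCommGroup M] [Module R M]
    [Module.Projective R M] : Nonempty (Conn D M) := by
  obtain ⟨s, hs⟩ := (Module.projective_def' (R := R) (P := M)).1 inferInstance
  have hs' : ∀ x, (s x).sum (fun i r => r • i) = x := fun x => LinearMap.congr_fun hs x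
  refine ⟨⟨fun x => (s x).sum fun i r => D r ⊗ₜ[R] i, fun x y => ?_, fun r x => ?_⟩⟩
  · rw [map_add, Finsupp.sum_add_index']
    · intro i
      rw [map_zero, TensorProduct.zero_tmul]
    · intro i a b
      rw [map_add, TensorProduct.add_tmul]
  · rw [map_smul]
    rw [Finsupp.sum_of_support_subset (s := (s x).support) _
      (Finsupp.support_smul) _ (fun i _ => by rw [map_zero, TensorProduct.zero_tmul])]
    have e : D r ⊗ₜ[R] x = (s x).sum fun i a => D r ⊗ₜ[R] (a • i) := by
      conv_lhs => rw [← hs' x]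
      rw [Finsupp.sum, TensorProduct.tmul_sum]
      rfl
    rw [e, Finsupp.sum, Finsupp.sum, Finset.smul_sum, ← Finset.sum_add_distrib]
    refine Finset.sum_congr rfl fun i _ => ?_
    rw [Finsupp.smul_apply, smul_eq_mul, Derivation.leibniz, TensorProduct.add_tmul,
      TensorProduct.tmul_smul, TensorProduct.smul_tmul', TensorProduct.smul_tmul', add_comm]

end Conn

/-! ### triples of connections -/

variable {D : Fin 3 → Derivation ℤ R k} {M : Type*} [AddCommGroup M] [Module R M]

/-- triples of connections -/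
abbrev Conn3 (D : Fin 3 → Derivation ℤ R k) (M : Type*) [AddCommGroup M] [Module R M] :=
  ∀ l, Conn (D l) M

/-- the trace cochain of four triples of connections -/
noncomputable def aTr (w0 w1 w2 w3 : Conn3 D M) : k :=
  LinearMap.trace k (k ⊗[R] M)
    (Conn.diff (w2 0) (w3 0) * Conn.diff (w1 1) (w2 1) * Conn.diff (w0 2) (w1 2))

theorem aTr_cocycle (w0 w1 w2 w3 w4 : Conn3 D M) :
    aTr w1 w2 w3 w4 - aTr w0 w2 w3 w4 + aTr w0 w1 w3 w4 - aTr w0 w1 w2 w4 + aTr w0 w1 w2 w3
      = 0 := by
  simp only [aTr]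
  rw [← Conn.diff_add (w0 2) (w1 2) (w2 2), ← Conn.diff_add (w1 1) (w2 1) (w3 1),
    ← Conn.diff_add (w2 0) (w3 0) (w4 0), ← map_sub, ← map_add, ← map_sub, ← map_add]
  convert map_zero (LinearMap.trace k (k ⊗[R] M)) using 2
  noncomm_ring

theorem aTr_zero0 (v w x : Conn3 D M) : aTr v v w x = 0 := by
  rw [aTr, Conn.diff_self, mul_zero, map_zero]

theorem aTr_zero1 (v w x : Conn3 D M) : aTr v w w x = 0 := by
  rw [aTr, Conn.diff_self, mul_zero, zero_mul, map_zero]

theorem aTr_zero2 (v w x : Conn3 D M) : aTr v w x x = 0 := by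
  rw [aTr, Conn.diff_self, zero_mul, zero_mul, map_zero]

theorem aTr_of_subsingleton [Subsingleton M] (w0 w1 w2 w3 : Conn3 D M) :
    aTr w0 w1 w2 w3 = 0 := by
  have : Subsingleton (k ⊗[R] M) := by
    refine ⟨fun a b => ?_⟩
    have h : ∀ z : k ⊗[R] M, z = 0 := fun z => by
      induction z using TensorProduct.induction_on with
      | zero => rfl
      | tmul a x => rw [Subsingleton.elim x 0, TensorProduct.tmul_zero]
      | add x y hx hy => rw [hx, hy, add_zero]
    rw [h a, h b]
  rw [aTr]
  convert map_zero (LinearMap.trace k (k ⊗[R] M)) using 2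
  exact LinearMap.ext fun z => Subsingleton.elim _ _

/-! ### split exact sequences -/

/-- a split short exact sequence -/
structure SES (R : Type*) [CommRing R] (N M Q : Type*) [AddCommGroup N] [Module R N]
    [AddCommGroup M] [Module R M] [AddCommGroup Q] [Module R Q] where
  ι : N →ₗ[R] M
  π : M →ₗ[R] Q
  s : Q →ₗ[R] M
  p : M →ₗ[R] N
  pι : ∀ n, p (ι n) = n
  πs : ∀ q, π (s q) = q
  sum : ∀ m, ι (p m) + s (π m) = m

section SES

variable {N Q : Type*} [AddCommGroup N] [Module R N] [AddCommGroup Q] [Module R Q]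

theorem SES.πι (E : SES R N M Q) (n : N) : E.π (E.ι n) = 0 := by
  have h := E.sum (E.ι n)
  rw [E.pι] at h
  have h2 : E.s (E.π (E.ι n)) = 0 := left_eq_add.1 h.symm
  rw [← E.πs (E.π (E.ι n)), h2, map_zero]

theorem SES.ps (E : SES R N M Q) (q : Q) : E.p (E.s q) = 0 := by
  have h := E.sum (E.s q)
  rw [E.πs] at h
  have h2 : E.ι (E.p (E.s q)) = 0 := by
    exact right_eq_add.1 h.symm
  rw [← E.pι (E.p (E.s q)), h2, map_zero]

theorem baseChange_apply_of_comp {M₁ M₂ M₃ : Type*} [AddCommGroup M₁] [Module R M₁]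
    [AddCommGroup M₂] [Module R M₂] [AddCommGroup M₃] [Module R M₃] {f : M₁ →ₗ[R] M₂}
    {g : M₂ →ₗ[R] M₃} {h : M₁ →ₗ[R] M₃} (e : ∀ x, g (f x) = h x) (z : k ⊗[R] M₁) :
    g.baseChange k (f.baseChange k z) = h.baseChange k z := by
  obtain rfl : g ∘ₗ f = h := LinearMap.ext e
  rw [LinearMap.baseChange_comp]
  rfl

theorem baseChange_apply_of_comp_comm {M₁ M₂ M₂' M₃ : Type*} [AddCommGroup M₁] [Module R M₁]
    [AddCommGroup M₂] [Module R M₂] [AddCommGroup M₂'] [Module R M₂'] [AddCommGroup M₃]
    [Module R M₃] {f : M₁ →ₗ[R] M₂} {g : M₂ →ₗ[R] M₃} {f' : M₁ →ₗ[R] M₂'} {g' : M₂' →ₗ[R] M₃}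
    (e : ∀ x, g (f x) = g' (f' x)) (z : k ⊗[R] M₁) :
    g.baseChange k (f.baseChange k z) = g'.baseChange k (f'.baseChange k z) := by
  rw [baseChange_apply_of_comp (h := g ∘ₗ f) (fun x => rfl),
    baseChange_apply_of_comp (h := g ∘ₗ f) (fun x => (e x).symm)]

/-- the extension of two connections -/
noncomputable def SES.conn (E : SES R N M Q) {D : Derivation ℤ R k} (v : Conn D N)
    (w : Conn D Q) : Conn D M where
  toFun x := E.ι.baseChange k (v.toFun (E.p x)) + E.s.baseChange k (w.toFun (E.π x))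
  add' x y := by
    rw [map_add, map_add, v.add', w.add', map_add, map_add]
    abel
  leib' r x := by
    rw [map_smul, map_smul, v.leib', w.leib', map_add, map_add, LinearMap.baseChange_tmul,
      LinearMap.baseChange_tmul, add_add_add_comm, ← TensorProduct.tmul_add, E.sum, smul_add,
      LinearMap.map_smul_of_tower, LinearMap.map_smul_of_tower]

theorem SES.rel_ι (E : SES R N M Q) {D : Derivation ℤ R k} (v : Conn D N) (w : Conn D Q) :
    Conn.Rel E.ι v (E.conn v w) := fun n => by
  change E.ι.baseChange k (v.toFun (E.p (E.ι n))) + E.s.baseChange k (w.toFun (E.π (E.ι n))) = _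
  rw [E.pι, E.πι, w.map_zero', map_zero, add_zero]

theorem SES.rel_π (E : SES R N M Q) {D : Derivation ℤ R k} (v : Conn D N) (w : Conn D Q) :
    Conn.Rel E.π (E.conn v w) w := fun m => by
  change _ = E.π.baseChange k
    (E.ι.baseChange k (v.toFun (E.p m)) + E.s.baseChange k (w.toFun (E.π m)))
  rw [map_add, baseChange_apply_of_comp (h := 0) E.πι, LinearMap.baseChange_zero,
    LinearMap.zero_apply, zero_add, baseChange_apply_of_comp (h := LinearMap.id) E.πs,
    LinearMap.baseChange_id, LinearMap.id_apply]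

theorem SES.trace_add (E : SES R N M Q) [Module.Finite R M]
    {f : Module.End k (k ⊗[R] M)} {fN : Module.End k (k ⊗[R] N)} {fQ : Module.End k (k ⊗[R] Q)}
    (hN : f ∘ₗ E.ι.baseChange k = E.ι.baseChange k ∘ₗ fN)
    (hQ : E.π.baseChange k ∘ₗ f = fQ ∘ₗ E.π.baseChange k) :
    LinearMap.trace k _ f = LinearMap.trace k _ fN + LinearMap.trace k _ fQ := by
  refine Vale.Agent.P178.H873.trace_add (i := E.ι.baseChange k) (q := E.π.baseChange k)
    ?_ ?_ ?_ hN hQ
  · refine Function.LeftInverse.injective (g := E.p.baseChange k) fun z => ?_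
    rw [baseChange_apply_of_comp (h := LinearMap.id) E.pι, LinearMap.baseChange_id,
      LinearMap.id_apply]
  · refine Function.RightInverse.surjective (g := E.s.baseChange k) fun z => ?_
    rw [baseChange_apply_of_comp (h := LinearMap.id) E.πs, LinearMap.baseChange_id,
      LinearMap.id_apply]
  · intro z
    constructor
    · intro hz
      refine ⟨E.p.baseChange k z, ?_⟩
      have : E.ι.baseChange k (E.p.baseChange k z) + E.s.baseChange k (E.π.baseChange k z) = z := by
        have e : E.ι ∘ₗ E.p + E.s ∘ₗ E.π = LinearMap.id := LinearMap.ext E.sum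
        have e2 := congrArg (fun l : M →ₗ[R] M => l.baseChange k z) e
        simp only [LinearMap.baseChange_id, LinearMap.id_apply] at e2
        rw [LinearMap.baseChange_add, LinearMap.baseChange_comp, LinearMap.baseChange_comp] at e2
        exact e2
      rw [hz, map_zero, add_zero] at this
      exact this
    · rintro ⟨n, rfl⟩
      rw [baseChange_apply_of_comp (h := 0) E.πι, LinearMap.baseChange_zero, LinearMap.zero_apply]

/-- additivity of the trace cochain -/
theorem SES.aTr_add (E : SES R N M Q) [Module.Finite R M]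
    {w0 w1 w2 w3 : Conn3 D M} {u0 u1 u2 u3 : Conn3 D N} {v0 v1 v2 v3 : Conn3 D Q}
    (h0 : ∀ l, Conn.Rel E.ι (u0 l) (w0 l)) (h1 : ∀ l, Conn.Rel E.ι (u1 l) (w1 l))
    (h2 : ∀ l, Conn.Rel E.ι (u2 l) (w2 l)) (h3 : ∀ l, Conn.Rel E.ι (u3 l) (w3 l))
    (g0 : ∀ l, Conn.Rel E.π (w0 l) (v0 l)) (g1 : ∀ l, Conn.Rel E.π (w1 l) (v1 l))
    (g2 : ∀ l, Conn.Rel E.π (w2 l) (v2 l)) (g3 : ∀ l, Conn.Rel E.π (w3 l) (v3 l)) :
    aTr w0 w1 w2 w3 = aTr u0 u1 u2 u3 + aTr v0 v1 v2 v3 := by
  refine E.trace_add ?_ ?_
  · change (Conn.diff (w2 0) (w3 0) ∘ₗ Conn.diff (w1 1) (w2 1) ∘ₗ Conn.diff (w0 2) (w1 2)) ∘ₗ _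
      = _ ∘ₗ (Conn.diff (u2 0) (u3 0) ∘ₗ Conn.diff (u1 1) (u2 1) ∘ₗ Conn.diff (u0 2) (u1 2))
    rw [LinearMap.comp_assoc, LinearMap.comp_assoc, Conn.Rel.diff (h0 2) (h1 2),
      ← LinearMap.comp_assoc (Conn.diff (u0 2) (u1 2)), Conn.Rel.diff (h1 1) (h2 1),
      LinearMap.comp_assoc, ← LinearMap.comp_assoc _ _ (Conn.diff (w2 0) (w3 0)),
      Conn.Rel.diff (h2 0) (h3 0), LinearMap.comp_assoc]
  · refine LinearMap.ext fun z => ?_
    have e1 : ∀ z, Conn.diff (v0 2) (v1 2) (E.π.baseChange k z) =
        E.π.baseChange k (Conn.diff (w0 2) (w1 2) z) :=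
      LinearMap.congr_fun (Conn.Rel.diff (g0 2) (g1 2))
    have e2 : ∀ z, Conn.diff (v1 1) (v2 1) (E.π.baseChange k z) =
        E.π.baseChange k (Conn.diff (w1 1) (w2 1) z) :=
      LinearMap.congr_fun (Conn.Rel.diff (g1 1) (g2 1))
    have e3 : ∀ z, Conn.diff (v2 0) (v3 0) (E.π.baseChange k z) =
        E.π.baseChange k (Conn.diff (w2 0) (w3 0) z) :=
      LinearMap.congr_fun (Conn.Rel.diff (g2 0) (g3 0))
    change E.π.baseChange k (Conn.diff (w2 0) (w3 0) (Conn.diff (w1 1) (w2 1)
      (Conn.diff (w0 2) (w1 2) z))) = Conn.diff (v2 0) (v3 0) (Conn.diff (v1 1) (v2 1)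
      (Conn.diff (v0 2) (v1 2) (E.π.baseChange k z)))
    rw [e1, e2, e3]

/-- compatibility of an extension with a sub-extension -/
theorem SES.rel_sub {L G B H F : Type*} [AddCommGroup L] [Module R L] [AddCommGroup G]
    [Module R G] [AddCommGroup B] [Module R B] [AddCommGroup H] [Module R H] [AddCommGroup F]
    [Module R F] (E : SES R G H F) (E1 : SES R L B G) (E2 : SES R L M H) (E3 : SES R B M F)
    (a : ∀ n, E2.p (E3.ι n) = E1.p n) (b : ∀ n, E2.π (E3.ι n) = E.ι (E1.π n))
    (c : ∀ z, E3.ι (E1.ι z) = E2.ι z) (c' : ∀ y, E3.ι (E1.s y) = E2.s (E.ι y))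
    {D : Derivation ℤ R k} (t : Conn D L) {u : Conn D G} {v : Conn D H}
    (h : Conn.Rel E.ι u v) : Conn.Rel E3.ι (E1.conn t u) (E2.conn t v) := fun n => by
  change E2.ι.baseChange k (t.toFun (E2.p (E3.ι n))) +
    E2.s.baseChange k (v.toFun (E2.π (E3.ι n))) = E3.ι.baseChange k
      (E1.ι.baseChange k (t.toFun (E1.p n)) + E1.s.baseChange k (u.toFun (E1.π n)))
  rw [a, b, h, map_add, baseChange_apply_of_comp c,
    baseChange_apply_of_comp_comm (f := E1.s) (g := E3.ι) (f' := E.ι) (g' := E2.s) c']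

/-- compatibility of an extension with a quotient -/
theorem SES.rel_quo {L G B H F : Type*} [AddCommGroup L] [Module R L] [AddCommGroup G]
    [Module R G] [AddCommGroup B] [Module R B] [AddCommGroup H] [Module R H] [AddCommGroup F]
    [Module R F] (E : SES R G H F) (E2 : SES R L M H) (E3 : SES R B M F)
    (a : ∀ z, E3.π (E2.ι z) = 0) (b : ∀ y, E3.π (E2.s y) = E.π y)
    (c : ∀ x, E3.π x = E.π (E2.π x))
    {D : Derivation ℤ R k} (t : Conn D L) {w : Conn D F} {v : Conn D H}
    (h : Conn.Rel E.π v w) : Conn.Rel E3.π (E2.conn t v) w := fun x => by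
  change _ = E3.π.baseChange k
    (E2.ι.baseChange k (t.toFun (E2.p x)) + E2.s.baseChange k (v.toFun (E2.π x)))
  rw [map_add, baseChange_apply_of_comp (h := 0) a, LinearMap.baseChange_zero,
    LinearMap.zero_apply, zero_add, baseChange_apply_of_comp b, c, h]

end SES

end Conn

end Vale.Agent.P178.H873
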