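import Vale.Agent.P178.H873.Bar

/-!
The homomorphism from the Steinberg group to invertible matrices, and the elements
`w_ij(u)`, `h_ij(u)`.
-/

namespace Vale.Agent.P178.H873

open Matrix
open scoped commutatorElement

variable {ι : Type*} {A B : Type*} [Ring A] [Ring B]

section tv
variable [Fintype ι] [DecidableEq ι]

theorem single_mul_self_of_ne {i j : ι} (h : i ≠ j) (a b : A) :
    Matrix.single i j a * Matrix.single i j b = 0 := by
  rw [Matrix.single_mul_single_of_ne _ _ _ _ (Ne.symm h)]

theorem one_add_single_mul {i j : ι} (h : i ≠ j) (a b : A) :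
    (1 + Matrix.single i j a) * (1 + Matrix.single i j b) = 1 + Matrix.single i j (a + b) := by
  rw [mul_add, add_mul, add_mul, single_mul_self_of_ne h, mul_one, one_mul, mul_one, add_zero,
    add_assoc, ← Matrix.single_add]

/-- the transvection `1 + a E_ij` as a unit (`1` if `i = j`) -/
def tv (i j : ι) (a : A) : (Matrix ι ι A)ˣ :=
  if h : i = j then 1 else
    { val := 1 + Matrix.single i j a
      inv := 1 + Matrix.single i j (-a)
      val_inv := by rw [one_add_single_mul h]; simp
      inv_val := by rw [one_add_single_mul h]; simp }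

theorem tv_val {i j : ι} (h : i ≠ j) (a : A) :
    ((tv i j a : (Matrix ι ι A)ˣ) : Matrix ι ι A) = 1 + Matrix.single i j a := by
  simp [tv, h]

theorem tv_inv {i j : ι} (h : i ≠ j) (a : A) :
    (((tv i j a)⁻¹ : (Matrix ι ι A)ˣ) : Matrix ι ι A) = 1 + Matrix.single i j (-a) := by
  simp only [tv, h, dite_false]; rfl

@[simp] theorem tv_diag (i : ι) (a : A) : (tv i i a : (Matrix ι ι A)ˣ) = 1 := by simp [tv]

theorem tv_add (i j : ι) (a b : A) : (tv i j (a + b) : (Matrix ι ι A)ˣ) = tv i j a * tv i j b := by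
  by_cases h : i = j
  · subst h; simp
  · apply Units.ext
    rw [Units.val_mul, tv_val h, tv_val h, tv_val h, one_add_single_mul h]

theorem tv_comm {i j k : ι} (hij : i ≠ j) (hjk : j ≠ k) (hik : i ≠ k) (a b : A) :
    ⁅(tv i j a : (Matrix ι ι A)ˣ), tv j k b⁆ = tv i k (a * b) := by
  apply Units.ext
  rw [commutatorElement_def, Units.val_mul, Units.val_mul, Units.val_mul, tv_inv hij, tv_inv hjk,
    tv_val hij, tv_val hjk, tv_val hik]
  have e1 : ∀ (c d : A), Matrix.single j k c * Matrix.single i j d = 0 := fun c d =>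
    Matrix.single_mul_single_of_ne _ _ _ _ hik.symm _
  have e2 : ∀ (c d : A), Matrix.single i j c * Matrix.single i j d = 0 :=
    single_mul_self_of_ne hij
  have e3 : ∀ (c d : A), Matrix.single j k c * Matrix.single j k d = 0 :=
    single_mul_self_of_ne hjk
  have e4 : ∀ (c d : A), Matrix.single i k c * Matrix.single i j d = 0 := fun c d =>
    Matrix.single_mul_single_of_ne _ _ _ _ hik.symm _
  have e5 : ∀ (c d : A), Matrix.single i k c * Matrix.single j k d = 0 := fun c d =>
    Matrix.single_mul_single_of_ne _ _ _ _ hjk.symm _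
  have e6 : ∀ (c d : A), Matrix.single i j c * Matrix.single j k d = Matrix.single i k (c * d) :=
    fun c d => Matrix.single_mul_single_same _ _ _ _ _
  have n1 : ∀ c : A, Matrix.single i j (-c) = -Matrix.single i j c := fun c =>
    (Matrix.single_neg _ _ _).symm
  have n2 : ∀ c : A, Matrix.single j k (-c) = -Matrix.single j k c := fun c =>
    (Matrix.single_neg _ _ _).symm
  simp only [mul_add, add_mul, mul_one, one_mul, e1, e2, e3, e4, e5, e6, add_zero, zero_mul,
    n1, n2, mul_neg, neg_mul, neg_neg, neg_zero]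
  abel

theorem tv_disj {i j k l : ι} (hjk : j ≠ k) (hil : i ≠ l) (a b : A) :
    ⁅(tv i j a : (Matrix ι ι A)ˣ), tv k l b⁆ = 1 := by
  by_cases h1 : i = j
  · subst h1; simp
  by_cases h2 : k = l
  · subst h2; simp
  rw [commutatorElement_eq_one_iff_mul_comm]
  apply Units.ext
  rw [Units.val_mul, Units.val_mul, tv_val h1, tv_val h2]
  simp only [mul_add, add_mul, mul_one, one_mul,
    Matrix.single_mul_single_of_ne _ _ _ _ hjk, Matrix.single_mul_single_of_ne _ _ _ _ hil.symm]
  abel

/-- the natural map from the Steinberg group to invertible matrices -/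
noncomputable def St.toGL : St ι A →* (Matrix ι ι A)ˣ :=
  St.lift (fun i j a => tv i j a) tv_diag (fun i j a b _ => tv_add i j a b)
    (fun _ _ _ a b h1 h2 h3 => tv_comm h1 h2 h3 a b)
    (fun _ _ _ _ a b _ _ h3 h4 => tv_disj h3 h4 a b)

@[simp] theorem St.toGL_x (i j : ι) (a : A) :
    St.toGL (St.x i j a : St ι A) = tv i j a := St.lift_x _ _ _ _ _ _ _ _

/-- compatibility with ring homomorphisms -/
theorem St.toGL_map (ψ : A →+* B) (g : St ι A) :
    ((St.toGL (St.map ψ g) : (Matrix ι ι B)ˣ) : Matrix ι ι B) =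
      ((St.toGL g : (Matrix ι ι A)ˣ) : Matrix ι ι A).map ψ := by
  have h : (St.toGL (A := B)).comp (St.map ψ) =
      (Units.map (ψ.mapMatrix : Matrix ι ι A →+* Matrix ι ι B).toMonoidHom).comp
        (St.toGL (ι := ι) (A := A)) := by
    refine St.hom_ext fun i j a hij => Units.ext ?_
    rw [MonoidHom.comp_apply, MonoidHom.comp_apply, St.map_x, St.toGL_x, St.toGL_x, tv_val hij]
    change _ = ψ.mapMatrix ((tv i j a : (Matrix ι ι A)ˣ) : Matrix ι ι A)
    rw [tv_val hij, map_add, map_one]
    congr 1
    ext a b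
    simp [Matrix.single, Matrix.map_apply, apply_ite ψ]
  have := congrArg (fun u : (Matrix ι ι B)ˣ => (u : Matrix ι ι B)) (DFunLike.congr_fun h g)
  exact this

end tv

namespace St

/-- `w_ij(u) = x_ij(u) x_ji(-u⁻¹) x_ij(u)` -/
noncomputable def w (i j : ι) (u : Aˣ) : St ι A :=
  x i j (u : A) * x j i (-((u⁻¹ : Aˣ) : A)) * x i j (u : A)

/-- `h_ij(u) = w_ij(u) w_ij(-1)` -/
noncomputable def h (i j : ι) (u : Aˣ) : St ι A := w i j u * w i j (-1)

variable [Fintype ι] [DecidableEq ι]

theorem toGL_w {i j : ι} (hij : i ≠ j) (u : Aˣ) :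
    ((toGL (w i j u : St ι A) : (Matrix ι ι A)ˣ) : Matrix ι ι A) =
      1 - Matrix.single i i 1 - Matrix.single j j 1 + Matrix.single i j (u : A)
        - Matrix.single j i ((u⁻¹ : Aˣ) : A) := by
  rw [w, map_mul, map_mul, toGL_x, toGL_x, Units.val_mul, Units.val_mul, tv_val hij,
    tv_val hij.symm]
  have e1 : ∀ c d : A, Matrix.single i j c * Matrix.single i j d = 0 := single_mul_self_of_ne hij
  have e2 : ∀ c d : A, Matrix.single i j c * Matrix.single j i d = Matrix.single i i (c * d) :=
    fun c d => Matrix.single_mul_single_same _ _ _ _ _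
  have e3 : ∀ c d : A, Matrix.single j i c * Matrix.single i j d = Matrix.single j j (c * d) :=
    fun c d => Matrix.single_mul_single_same _ _ _ _ _
  have e4 : ∀ c d : A, Matrix.single i i c * Matrix.single i j d = Matrix.single i j (c * d) :=
    fun c d => Matrix.single_mul_single_same _ _ _ _ _
  have n2 : ∀ c : A, Matrix.single j i (-c) = -Matrix.single j i c := fun c =>
    (Matrix.single_neg _ _ _).symm
  have n3 : ∀ c : A, Matrix.single i i (-c) = -Matrix.single i i c := fun c =>
    (Matrix.single_neg _ _ _).symm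
  have n4 : ∀ c : A, Matrix.single j j (-c) = -Matrix.single j j c := fun c =>
    (Matrix.single_neg _ _ _).symm
  simp only [mul_add, add_mul, mul_one, one_mul, e1, e2, e3, e4, n2, n3, mul_neg, neg_mul,
    Units.mul_inv, Units.inv_mul]
  abel

theorem toGL_h {i j : ι} (hij : i ≠ j) (u : Aˣ) :
    ((toGL (h i j u : St ι A) : (Matrix ι ι A)ˣ) : Matrix ι ι A) =
      1 - Matrix.single i i 1 - Matrix.single j j 1 + Matrix.single i i (u : A)
        + Matrix.single j j ((u⁻¹ : Aˣ) : A) := by
  rw [h, map_mul, Units.val_mul, toGL_w hij, toGL_w hij]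
  have s1 : ∀ (a b c : ι) (x y : A), Matrix.single a b x * Matrix.single b c y =
      Matrix.single a c (x * y) := fun a b c x y => Matrix.single_mul_single_same _ _ _ _ _
  have z1 : ∀ (x y : A), Matrix.single i i x * Matrix.single j j y = 0 :=
    fun x y => Matrix.single_mul_single_of_ne _ _ _ _ hij _
  have z2 : ∀ (x y : A), Matrix.single i i x * Matrix.single j i y = 0 :=
    fun x y => Matrix.single_mul_single_of_ne _ _ _ _ hij _
  have z3 : ∀ (x y : A), Matrix.single j j x * Matrix.single i i y = 0 :=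
    fun x y => Matrix.single_mul_single_of_ne _ _ _ _ hij.symm _
  have z4 : ∀ (x y : A), Matrix.single j j x * Matrix.single i j y = 0 :=
    fun x y => Matrix.single_mul_single_of_ne _ _ _ _ hij.symm _
  have z5 : ∀ (x y : A), Matrix.single i j x * Matrix.single i i y = 0 :=
    fun x y => Matrix.single_mul_single_of_ne _ _ _ _ hij.symm _
  have z6 : ∀ (x y : A), Matrix.single i j x * Matrix.single i j y = 0 :=
    fun x y => Matrix.single_mul_single_of_ne _ _ _ _ hij.symm _
  have z7 : ∀ (x y : A), Matrix.single j i x * Matrix.single j j y = 0 :=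
    fun x y => Matrix.single_mul_single_of_ne _ _ _ _ hij _
  have z8 : ∀ (x y : A), Matrix.single j i x * Matrix.single j i y = 0 :=
    fun x y => Matrix.single_mul_single_of_ne _ _ _ _ hij _
  have m1 : ((-1 : Aˣ) : A) = -1 := by simp
  have m2 : (((-1 : Aˣ)⁻¹ : Aˣ) : A) = -1 := by simp
  have n : ∀ (a b : ι) (x : A), Matrix.single a b (-x) = -Matrix.single a b x := fun a b x =>
    (Matrix.single_neg _ _ _).symm
  simp only [m1, m2, mul_add, add_mul, mul_sub, sub_mul, mul_one, one_mul, s1, z1, z2, z3, z4, z5,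
    z6, z7, z8, n, mul_neg, neg_mul]
  abel

end St

end Vale.Agent.P178.H873
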