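import Vale.Agent.P178.H873.QCo

/-!
The cocycle as a function on the 4-simplices of the nerve of `QP R`.
-/

open CategoryTheory Simplicial
open scoped TensorProduct
open Vale.Agent.P178.H847

namespace Vale.Agent.P178.H873

universe u w

variable {R : Type u} {k : Type w} [CommRing R] [Field k] [Algebra R k]
variable {D : Fin 3 → Derivation ℤ R k} (d : QData D)

/-- restriction of the chain along an order preserving map -/
theorem cub_comp {ι ι' : Type*} [Preorder ι] [Preorder ι'] (x : ι ⥤ QP R) (F : ι' ⥤ ι)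
    {i0 i1 i2 i3 i4 : ι'} (h1 : i0 ≤ i1) (h2 : i1 ≤ i2) (h3 : i2 ≤ i3) (h4 : i3 ≤ i4) :
    cub d (F ⋙ x) h1 h2 h3 h4 =
      cub d x (i0 := F.obj i0) (i1 := F.obj i1) (i2 := F.obj i2) (i3 := F.obj i3)
        (i4 := F.obj i4) (leOfHom (F.map (homOfLE h1))) (leOfHom (F.map (homOfLE h2)))
        (leOfHom (F.map (homOfLE h3))) (leOfHom (F.map (homOfLE h4))) := rfl

/-- the cochain on the nerve -/
noncomputable def qcoc (x : (nerve (QP R)) _⦋4⦌) : k :=
  cub d (ι := Fin 5) x (i0 := 0) (i1 := 1) (i2 := 2) (i3 := 3) (i4 := 4)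
    (by decide) (by decide) (by decide) (by decide)

/-- **the cocycle identity on the nerve of `QP R`** -/
theorem qcoc_cocycle (y : (nerve (QP R)) _⦋5⦌) :
    ∑ i : Fin 6, (-1 : ℤ) ^ (i : ℕ) • qcoc d ((nerve (QP R)).δ i y) = 0 := by
  have key := cub_cocycle d (ι := Fin 6) y (i0 := 0) (i1 := 1) (i2 := 2) (i3 := 3) (i4 := 4)
    (i5 := 5) (by decide) (by decide) (by decide) (by decide) (by decide)
  rw [Fin.sum_univ_six]
  have e0 : qcoc d ((nerve (QP R)).δ 0 y) = cub d (ι := Fin 6) y (i0 := 1) (i1 := 2) (i2 := 3)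
    (i3 := 4) (i4 := 5) (by decide) (by decide) (by decide) (by decide) := rfl
  have e1 : qcoc d ((nerve (QP R)).δ 1 y) = cub d (ι := Fin 6) y (i0 := 0) (i1 := 2) (i2 := 3)
    (i3 := 4) (i4 := 5) (by decide) (by decide) (by decide) (by decide) := rfl
  have e2 : qcoc d ((nerve (QP R)).δ 2 y) = cub d (ι := Fin 6) y (i0 := 0) (i1 := 1) (i2 := 3)
    (i3 := 4) (i4 := 5) (by decide) (by decide) (by decide) (by decide) := rfl
  have e3 : qcoc d ((nerve (QP R)).δ 3 y) = cub d (ι := Fin 6) y (i0 := 0) (i1 := 1) (i2 := 2)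
    (i3 := 4) (i4 := 5) (by decide) (by decide) (by decide) (by decide) := rfl
  have e4 : qcoc d ((nerve (QP R)).δ 4 y) = cub d (ι := Fin 6) y (i0 := 0) (i1 := 1) (i2 := 2)
    (i3 := 3) (i4 := 5) (by decide) (by decide) (by decide) (by decide) := rfl
  have e5 : qcoc d ((nerve (QP R)).δ 5 y) = cub d (ι := Fin 6) y (i0 := 0) (i1 := 1) (i2 := 2)
    (i3 := 3) (i4 := 4) (by decide) (by decide) (by decide) (by decide) := rfl
  rw [e0, e1, e2, e3, e4, e5]
  simp only [Fin.val_zero, Fin.val_one, Fin.val_two, pow_zero, pow_one, one_smul]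
  have v3 : ((3 : Fin 6) : ℕ) = 3 := rfl
  have v4 : ((4 : Fin 6) : ℕ) = 4 := rfl
  have v5 : ((5 : Fin 6) : ℕ) = 5 := rfl
  rw [v3, v4, v5]
  norm_num
  linear_combination key

end Vale.Agent.P178.H873
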