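import Vale.Agent.P178.H847.QDef
import Vale.Agent.P178.H873.Conn

/-!
Kernels of morphisms of Quillen's category `Q P(R)`, the exact sequence of a composable pair and
extension of connections.
-/

open CategoryTheory
open scoped TensorProduct
open Vale.Agent.P178.H847

namespace Vale.Agent.P178.H873

universe u v w

section QKer

variable {R : Type u} [CommRing R]

/-- the kernel of the surjection of a morphism of `QP`, as a submodule of the target -/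
def QKer {M : Type v} {M' : Type w} [AddCommGroup M] [Module R M] [AddCommGroup M'] [Module R M']
    (f : QHom R M M') : Submodule R M' where
  carrier := {x | ∃ h : x ∈ f.dom, f.fn ⟨x, h⟩ = 0}
  add_mem' := by
    rintro x y ⟨hx, hx'⟩ ⟨hy, hy'⟩
    refine ⟨add_mem hx hy, ?_⟩
    have : f.fn ⟨x + y, add_mem hx hy⟩ = f.fn ⟨x, hx⟩ + f.fn ⟨y, hy⟩ := by
      rw [← map_add]; rfl
    rw [this, hx', hy', add_zero]
  zero_mem' := ⟨zero_mem _, map_zero f.fn⟩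
  smul_mem' := by
    rintro r x ⟨hx, hx'⟩
    refine ⟨Submodule.smul_mem _ r hx, ?_⟩
    have : f.fn ⟨r • x, Submodule.smul_mem _ r hx⟩ = r • f.fn ⟨x, hx⟩ := by
      rw [← map_smul]; rfl
    rw [this, hx', smul_zero]

variable {X Y Z : Type v} [AddCommGroup X] [Module R X] [AddCommGroup Y] [Module R Y]
  [AddCommGroup Z] [Module R Z]

theorem mem_QKer {f : QHom R X Y} {x : Y} :
    x ∈ QKer f ↔ ∃ h : x ∈ f.dom, f.fn ⟨x, h⟩ = 0 := Iff.rfl

theorem exists_sec [Module.Projective R X] (f : QHom R X Y) :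
    ∃ s : X →ₗ[R] f.dom, ∀ x, f.fn (s x) = x := by
  obtain ⟨s, hs⟩ := LinearMap.exists_rightInverse_of_surjective f.fn
    (LinearMap.range_eq_top.2 f.surj)
  exact ⟨s, fun x => LinearMap.congr_fun hs x⟩

/-- `QKer f` is a retract of the target -/
theorem exists_retr [Module.Projective R X] (f : QHom R X Y) :
    ∃ r : Y →ₗ[R] QKer f, ∀ x : QKer f, r x = x := by
  obtain ⟨σ, r, hσ, hr, hr'⟩ := exists_split f.dom f.proj
  obtain ⟨s, hs⟩ := exists_sec f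
  let q : Y →ₗ[R] f.dom := (LinearMap.id - s ∘ₗ f.fn) ∘ₗ r
  have hq : ∀ y, f.fn (q y) = 0 := fun y => by
    change f.fn (r y - s (f.fn (r y))) = 0
    rw [map_sub, hs, sub_self]
  refine ⟨LinearMap.codRestrict (QKer f) (f.dom.subtype ∘ₗ q) fun y => ⟨(q y).2, hq y⟩,
    fun x => Subtype.ext ?_⟩
  obtain ⟨x, hx, hx'⟩ := x
  change ((r x - s (f.fn (r x)) : f.dom) : Y) = x
  rw [hr' ⟨x, hx⟩, hx', map_zero, sub_zero]

instance [Module.Projective R X] [Module.Projective R Y] (f : QHom R X Y) :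
    Module.Projective R (QKer f) := by
  obtain ⟨r, hr⟩ := exists_retr f
  exact Module.Projective.of_split (QKer f).subtype r (LinearMap.ext hr)

instance [Module.Projective R X] [Module.Finite R Y] (f : QHom R X Y) :
    Module.Finite R (QKer f) := by
  obtain ⟨r, hr⟩ := exists_retr f
  exact Module.Finite.of_surjective r fun x => ⟨x, hr x⟩

/-- the inclusion of kernels -/
theorem QKer_le {f : QHom R X Y} {g : QHom R Y Z} {h : QHom R X Z} (e : QHom.comp f g = h) :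
    QKer g ≤ QKer h := by
  subst e
  rintro x ⟨hx, hx'⟩
  have h1 : g.fn ⟨x, hx⟩ ∈ f.dom := by
    rw [hx']
    exact zero_mem _
  refine ⟨⟨hx, h1⟩, ?_⟩
  have : (⟨g.fn ⟨x, hx⟩, h1⟩ : f.dom) = 0 := Subtype.ext hx'
  change f.fn ⟨g.fn ⟨x, hx⟩, h1⟩ = 0
  rw [this, map_zero]

theorem QKer_dom {f : QHom R X Y} {g : QHom R Y Z} {h : QHom R X Z} (e : QHom.comp f g = h)
    {x : Z} (hx : x ∈ QKer h) : x ∈ g.dom := by
  subst e
  exact hx.1.1

theorem QKer_fn {f : QHom R X Y} {g : QHom R Y Z} {h : QHom R X Z} (e : QHom.comp f g = h)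
    {x : Z} (hx : x ∈ QKer h) : g.fn ⟨x, QKer_dom e hx⟩ ∈ QKer f := by
  subst e
  exact ⟨hx.1.2, hx.2⟩

theorem QKer_of {f : QHom R X Y} {g : QHom R Y Z} {h : QHom R X Z} (e : QHom.comp f g = h)
    {x : Z} (hx : x ∈ g.dom) (hx' : g.fn ⟨x, hx⟩ ∈ QKer f) : x ∈ QKer h := by
  subst e
  exact ⟨⟨hx, hx'.1⟩, hx'.2⟩

/-- the projection of kernels -/
def QKer.π {f : QHom R X Y} {g : QHom R Y Z} {h : QHom R X Z} (e : QHom.comp f g = h) :
    QKer h →ₗ[R] QKer f where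
  toFun x := ⟨g.fn ⟨x.1, QKer_dom e x.2⟩, QKer_fn e x.2⟩
  map_add' x y := by
    apply Subtype.ext
    change g.fn _ = g.fn _ + g.fn _
    rw [← map_add]
    rfl
  map_smul' r x := by
    apply Subtype.ext
    change g.fn _ = r • g.fn _
    rw [← map_smul]
    rfl

/-- the inclusion of kernels -/
def QKer.ι {f : QHom R X Y} {g : QHom R Y Z} {h : QHom R X Z} (e : QHom.comp f g = h) :
    QKer g →ₗ[R] QKer h := Submodule.inclusion (QKer_le e)

/-- the section of `QKer.π` given by a section of `g.fn` -/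
def QKer.s {f : QHom R X Y} {g : QHom R Y Z} {h : QHom R X Z} (e : QHom.comp f g = h)
    (σ : Y →ₗ[R] g.dom) (hσ : ∀ y, g.fn (σ y) = y) : QKer f →ₗ[R] QKer h :=
  LinearMap.codRestrict (QKer h) (g.dom.subtype ∘ₗ σ ∘ₗ (QKer f).subtype) fun y =>
    QKer_of e (σ y).2 (by
      change g.fn (σ y) ∈ QKer f
      rw [hσ]
      exact y.2)

theorem QKer.π_coe {f : QHom R X Y} {g : QHom R Y Z} {h : QHom R X Z} (e : QHom.comp f g = h)
    (x : QKer h) : (QKer.π e x : Y) = g.fn ⟨x.1, QKer_dom e x.2⟩ := rfl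

theorem QKer.ι_coe {f : QHom R X Y} {g : QHom R Y Z} {h : QHom R X Z} (e : QHom.comp f g = h)
    (x : QKer g) : (QKer.ι e x : Z) = x := rfl

theorem QKer.s_coe {f : QHom R X Y} {g : QHom R Y Z} {h : QHom R X Z} (e : QHom.comp f g = h)
    (σ : Y →ₗ[R] g.dom) (hσ : ∀ y, g.fn (σ y) = y) (x : QKer f) :
    (QKer.s e σ hσ x : Z) = σ x := rfl

theorem QKer.π_s {f : QHom R X Y} {g : QHom R Y Z} {h : QHom R X Z} (e : QHom.comp f g = h)
    (σ : Y →ₗ[R] g.dom) (hσ : ∀ y, g.fn (σ y) = y) (x : QKer f) :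
    QKer.π e (QKer.s e σ hσ x) = x := Subtype.ext (hσ x)

theorem QKer.sub_mem {f : QHom R X Y} {g : QHom R Y Z} {h : QHom R X Z} (e : QHom.comp f g = h)
    (σ : Y →ₗ[R] g.dom) (hσ : ∀ y, g.fn (σ y) = y) (x : QKer h) :
    ((x - QKer.s e σ hσ (QKer.π e x) : QKer h) : Z) ∈ QKer g := by
  have h1 : (x : Z) ∈ g.dom := QKer_dom e x.2
  refine ⟨(⟨x, h1⟩ - σ (g.fn ⟨x, h1⟩) : g.dom).2, ?_⟩
  change g.fn (⟨x, h1⟩ - σ (g.fn ⟨x, h1⟩)) = 0
  rw [map_sub, hσ, sub_self]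

/-- the split exact sequence of kernels of a composable pair -/
def QKer.ses {f : QHom R X Y} {g : QHom R Y Z} {h : QHom R X Z} (e : QHom.comp f g = h)
    (σ : Y →ₗ[R] g.dom) (hσ : ∀ y, g.fn (σ y) = y) : SES R (QKer g) (QKer h) (QKer f) where
  ι := QKer.ι e
  π := QKer.π e
  s := QKer.s e σ hσ
  p := LinearMap.codRestrict (QKer g)
    ((QKer h).subtype ∘ₗ (LinearMap.id - QKer.s e σ hσ ∘ₗ QKer.π e)) (QKer.sub_mem e σ hσ)
  pι n := by
    apply Subtype.ext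
    change ((QKer.ι e n - QKer.s e σ hσ (QKer.π e (QKer.ι e n)) : QKer h) : Z) = n
    have : QKer.π e (QKer.ι e n) = 0 := Subtype.ext n.2.2
    rw [this, map_zero, sub_zero, QKer.ι_coe]
  πs := QKer.π_s e σ hσ
  sum m := by
    apply Subtype.ext
    change ((m - QKer.s e σ hσ (QKer.π e m) : QKer h) : Z) +
      (QKer.s e σ hσ (QKer.π e m) : Z) = m
    rw [Submodule.coe_sub, sub_add_cancel]

variable {W : Type v} [AddCommGroup W] [Module R W]

theorem QKer.π_ι_zero {f : QHom R X Y} {g : QHom R Y Z} {h : QHom R X Z} {l : QHom R Z W}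
    {gl : QHom R Y W} {m : QHom R X W} (e1 : QHom.comp g l = gl) (e2 : QHom.comp h l = m)
    (e3 : QHom.comp f gl = m) (z : QKer l) : QKer.π e3 (QKer.ι e2 z) = 0 := by
  subst e1
  apply Subtype.ext
  have h1 : ((QKer.π e3 (QKer.ι e2 z) : QKer f) : Y) =
    g.fn ⟨l.fn ⟨z, _⟩, (QKer_dom e3 (QKer.ι e2 z).2).2⟩ := rfl
  have : (⟨l.fn ⟨z, _⟩, (QKer_dom e3 (QKer.ι e2 z).2).2⟩ : g.dom) = 0 := Subtype.ext z.2.2
  rw [h1, this, map_zero]
  rfl

theorem QKer.π_s_eq {f : QHom R X Y} {g : QHom R Y Z} {h : QHom R X Z} {l : QHom R Z W}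
    {gl : QHom R Y W} {m : QHom R X W} (e : QHom.comp f g = h) (e1 : QHom.comp g l = gl)
    (e2 : QHom.comp h l = m) (e3 : QHom.comp f gl = m) (σ : Z →ₗ[R] l.dom)
    (hσ : ∀ y, l.fn (σ y) = y) (y : QKer h) :
    QKer.π e3 (QKer.s e2 σ hσ y) = QKer.π e y := by
  subst e1
  apply Subtype.ext
  have h1 : ((QKer.π e3 (QKer.s e2 σ hσ y) : QKer f) : Y) =
    g.fn ⟨l.fn (σ y), (QKer_dom e3 (QKer.s e2 σ hσ y).2).2⟩ := rfl
  rw [h1]
  exact congrArg g.fn (Subtype.ext (hσ y))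

theorem QKer.π_π {f : QHom R X Y} {g : QHom R Y Z} {h : QHom R X Z} {l : QHom R Z W}
    {gl : QHom R Y W} {m : QHom R X W} (e : QHom.comp f g = h) (e1 : QHom.comp g l = gl)
    (e2 : QHom.comp h l = m) (e3 : QHom.comp f gl = m) (x : QKer m) :
    QKer.π e3 x = QKer.π e (QKer.π e2 x) := by
  subst e1
  rfl

end QKer

section QData

variable {R : Type u} {k : Type w} [CommRing R] [Field k] [Algebra R k]

/-- a morphism of `QP R` as a `QHom` -/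
abbrev toQ {X Y : QP R} (f : X ⟶ Y) : QHom R X.M Y.M := f

/-- the kernel of a morphism of `QP R` -/
abbrev KM {X Y : QP R} (f : X ⟶ Y) : Submodule R Y.M := QKer (toQ f)

/-- the choices used to write down the cocycle: a section and a triple of connections on the
kernel for every morphism -/
structure QData (D : Fin 3 → Derivation ℤ R k) where
  sec : ∀ {X Y : QP R} (f : X ⟶ Y), X.M →ₗ[R] (toQ f).dom
  sec_spec : ∀ {X Y : QP R} (f : X ⟶ Y) (x : X.M), (toQ f).fn (sec f x) = x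
  conn : ∀ {X Y : QP R} (f : X ⟶ Y), Conn3 D (KM f)

theorem QData.exists_of (D : Fin 3 → Derivation ℤ R k) {X₀ Y₀ : QP R} (f₀ : X₀ ⟶ Y₀)
    (v₀ : Conn3 D (KM f₀)) : ∃ d : QData D, d.conn f₀ = v₀ := by
  classical
  have h1 : ∀ s : (Σ X Y : QP R, X ⟶ Y), ∃ s' : s.1.M →ₗ[R] (toQ s.2.2).dom,
      ∀ x, (toQ s.2.2).fn (s' x) = x := fun s => exists_sec (toQ s.2.2)
  have h2 : ∀ s : (Σ X Y : QP R, X ⟶ Y), Nonempty (Conn3 D (KM s.2.2)) := fun s =>
    ⟨fun l => (Conn.nonempty_of_projective (D l) (KM s.2.2)).some⟩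
  choose sec hsec using h1
  let c : ∀ s : (Σ X Y : QP R, X ⟶ Y), Conn3 D (KM s.2.2) :=
    Function.update (fun s => (h2 s).some) ⟨X₀, Y₀, f₀⟩ v₀
  refine ⟨⟨fun {X Y} f => sec ⟨X, Y, f⟩, fun {X Y} f => hsec ⟨X, Y, f⟩,
    fun {X Y} f => c ⟨X, Y, f⟩⟩, ?_⟩
  change Function.update (fun s => (h2 s).some) ⟨X₀, Y₀, f₀⟩ v₀ ⟨X₀, Y₀, f₀⟩ = v₀
  exact Function.update_self _ _ _

variable {D : Fin 3 → Derivation ℤ R k} (d : QData D)

/-- the exact sequence of a composable pair -/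
def QData.ses {X Y Z : QP R} {f : X ⟶ Y} {g : Y ⟶ Z} {h : X ⟶ Z} (e : f ≫ g = h) :
    SES R (KM g) (KM h) (KM f) :=
  QKer.ses (f := toQ f) (g := toQ g) (h := toQ h) e (d.sec g) (d.sec_spec g)

/-- extension of a triple of connections on the quotient -/
noncomputable def QData.ext {X Y Z : QP R} {f : X ⟶ Y} {g : Y ⟶ Z} {h : X ⟶ Z}
    (e : f ≫ g = h) (v : Conn3 D (KM f)) : Conn3 D (KM h) :=
  fun l => (d.ses e).conn (d.conn g l) (v l)

/-- the triple `v` on `KM h` induces `u` on `KM g` and `w` on `KM f` -/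
structure Cpt {X Y Z : QP R} {f : X ⟶ Y} {g : Y ⟶ Z} {h : X ⟶ Z} (e : f ≫ g = h)
    (w : Conn3 D (KM f)) (u : Conn3 D (KM g)) (v : Conn3 D (KM h)) : Prop where
  sub : ∀ l, Conn.Rel (QKer.ι (f := toQ f) (g := toQ g) (h := toQ h) e) (u l) (v l)
  quo : ∀ l, Conn.Rel (QKer.π (f := toQ f) (g := toQ g) (h := toQ h) e) (v l) (w l)

theorem cpt_ext {X Y Z : QP R} {f : X ⟶ Y} {g : Y ⟶ Z} {h : X ⟶ Z} (e : f ≫ g = h)
    (w : Conn3 D (KM f)) : Cpt e w (d.conn g) (d.ext e w) where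
  sub _ := (d.ses e).rel_ι _ _
  quo _ := (d.ses e).rel_π _ _

theorem Cpt.ext {X Y Z W : QP R} {f : X ⟶ Y} {g : Y ⟶ Z} {h : X ⟶ Z} {l : Z ⟶ W}
    {gl : Y ⟶ W} {m : X ⟶ W} {e : f ≫ g = h} (e1 : g ≫ l = gl) (e2 : h ≫ l = m)
    (e3 : f ≫ gl = m) {w : Conn3 D (KM f)} {u : Conn3 D (KM g)} {v : Conn3 D (KM h)}
    (hc : Cpt e w u v) : Cpt e3 w (d.ext e1 u) (d.ext e2 v) where
  sub i := (d.ses e).rel_sub (d.ses e1) (d.ses e2) (d.ses e3) (fun _ => Subtype.ext rfl)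
    (fun _ => Subtype.ext rfl) (fun _ => Subtype.ext rfl) (fun _ => Subtype.ext rfl)
    (d.conn l i) (hc.sub i)
  quo i := (d.ses e).rel_quo (d.ses e2) (d.ses e3) (QKer.π_ι_zero e1 e2 e3)
    (QKer.π_s_eq e e1 e2 e3 (d.sec l) (d.sec_spec l)) (QKer.π_π e e1 e2 e3) (d.conn l i) (hc.quo i)

theorem Cpt.aTr_add {X Y Z : QP R} {f : X ⟶ Y} {g : Y ⟶ Z} {h : X ⟶ Z} {e : f ≫ g = h}
    (d : QData D)
    {w0 w1 w2 w3 : Conn3 D (KM f)} {u0 u1 u2 u3 : Conn3 D (KM g)} {v0 v1 v2 v3 : Conn3 D (KM h)}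
    (h0 : Cpt e w0 u0 v0) (h1 : Cpt e w1 u1 v1) (h2 : Cpt e w2 u2 v2) (h3 : Cpt e w3 u3 v3) :
    aTr v0 v1 v2 v3 = aTr u0 u1 u2 u3 + aTr w0 w1 w2 w3 :=
  (d.ses e).aTr_add h0.sub h1.sub h2.sub h3.sub h0.quo h1.quo h2.quo h3.quo

theorem Cpt.cubeFun_add {X Y Z : QP R} {f : X ⟶ Y} {g : Y ⟶ Z} {h : X ⟶ Z} {e : f ≫ g = h}
    (d : QData D)
    {w : Bool → Bool → Bool → Conn3 D (KM f)} {u : Bool → Bool → Bool → Conn3 D (KM g)}
    {v : Bool → Bool → Bool → Conn3 D (KM h)} (hc : ∀ x y z, Cpt e (w x y z) (u x y z) (v x y z)) :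
    cubeFun aTr v = cubeFun aTr u + cubeFun aTr w :=
  Vale.Agent.P178.H873.cubeFun_add _ _ _ _ _ _ fun _ _ _ _ _ _ _ _ _ _ _ _ =>
    Cpt.aTr_add d (hc _ _ _) (hc _ _ _) (hc _ _ _) (hc _ _ _)

theorem cubeFun_indep0 {M : Type*} [AddCommGroup M] [Module R M]
    (S : Bool → Bool → Bool → Conn3 D M) (h : ∀ x y z, S x y z = S false y z) :
    cubeFun aTr S = 0 := cubeFun_of_indep0 _ aTr_zero0 aTr_zero1 aTr_zero2 S h

theorem cubeFun_indep2 {M : Type*} [AddCommGroup M] [Module R M]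
    (S : Bool → Bool → Bool → Conn3 D M) (h : ∀ x y z, S x y z = S x y false) :
    cubeFun aTr S = 0 := cubeFun_of_indep2 _ aTr_zero0 aTr_zero1 aTr_zero2 S h

/-! ### the connections of a chain of morphisms -/

variable {ι : Type*} [Preorder ι] (x : ι ⥤ QP R)

/-- the morphisms of a chain -/
abbrev up {i j : ι} (h : i ≤ j) : x.obj i ⟶ x.obj j := x.map (homOfLE h)

theorem up_comp {i j l : ι} (h : i ≤ j) (h' : j ≤ l) : up x h ≫ up x h' = up x (h.trans h') := by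
  rw [up, up, ← x.map_comp]
  rfl

variable {i0 i1 i2 i3 i4 i5 : ι}

/-- the chosen connection of a pair of vertices -/
noncomputable def T0 (h1 : i0 ≤ i1) : Conn3 D (KM (up x h1)) := d.conn _

/-- the connections of a chain of three vertices -/
noncomputable def T1 (h1 : i0 ≤ i1) (h2 : i1 ≤ i2) : Bool → Conn3 D (KM (up x (h1.trans h2)))
  | true => d.ext (up_comp x h1 h2) (T0 d x h1)
  | false => T0 d x (h1.trans h2)

/-- the connections of a chain of four vertices -/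
noncomputable def T2 (h1 : i0 ≤ i1) (h2 : i1 ≤ i2) (h3 : i2 ≤ i3) (b1 : Bool) :
    Bool → Conn3 D (KM (up x ((h1.trans h2).trans h3)))
  | true => d.ext (up_comp x (h1.trans h2) h3) (T1 d x h1 h2 b1)
  | false => T1 d x h1 (h2.trans h3) b1

/-- the connections of a chain of five vertices -/
noncomputable def T3 (h1 : i0 ≤ i1) (h2 : i1 ≤ i2) (h3 : i2 ≤ i3) (h4 : i3 ≤ i4)
    (b1 b2 : Bool) : Bool → Conn3 D (KM (up x (((h1.trans h2).trans h3).trans h4)))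
  | true => d.ext (up_comp x ((h1.trans h2).trans h3) h4) (T2 d x h1 h2 h3 b1 b2)
  | false => T2 d x h1 h2 (h3.trans h4) b1 b2

/-- the connections of a chain of six vertices -/
noncomputable def T4 (h1 : i0 ≤ i1) (h2 : i1 ≤ i2) (h3 : i2 ≤ i3) (h4 : i3 ≤ i4) (h5 : i4 ≤ i5)
    (b1 b2 b3 : Bool) :
    Bool → Conn3 D (KM (up x ((((h1.trans h2).trans h3).trans h4).trans h5)))
  | true => d.ext (up_comp x (((h1.trans h2).trans h3).trans h4) h5) (T3 d x h1 h2 h3 h4 b1 b2 b3)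
  | false => T3 d x h1 h2 h3 (h4.trans h5) b1 b2 b3

variable (h1 : i0 ≤ i1) (h2 : i1 ≤ i2) (h3 : i2 ≤ i3) (h4 : i3 ≤ i4) (h5 : i4 ≤ i5)

theorem cpt1_1 : Cpt (up_comp x h1 h2) (T0 d x h1) (T0 d x h2) (T1 d x h1 h2 true) :=
  cpt_ext d _ _

theorem cpt2_1 (b2 : Bool) : Cpt (up_comp x h1 (h2.trans h3)) (T0 d x h1) (T1 d x h2 h3 b2)
    (T2 d x h1 h2 h3 true b2) := by
  cases b2
  · exact cpt_ext d _ _
  · exact (cpt1_1 d x h1 h2).ext d (up_comp x h2 h3) _ _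

theorem cpt2_2 (b1 : Bool) : Cpt (up_comp x (h1.trans h2) h3) (T1 d x h1 h2 b1) (T0 d x h3)
    (T2 d x h1 h2 h3 b1 true) := cpt_ext d _ _

theorem cpt3_1 (b2 b3 : Bool) : Cpt (up_comp x h1 ((h2.trans h3).trans h4)) (T0 d x h1)
    (T2 d x h2 h3 h4 b2 b3) (T3 d x h1 h2 h3 h4 true b2 b3) := by
  cases b3
  · exact cpt2_1 d x h1 h2 (h3.trans h4) b2
  · exact (cpt2_1 d x h1 h2 h3 b2).ext d (up_comp x (h2.trans h3) h4) _ _

theorem cpt3_2 (b1 b3 : Bool) : Cpt (up_comp x (h1.trans h2) (h3.trans h4)) (T1 d x h1 h2 b1)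
    (T1 d x h3 h4 b3) (T3 d x h1 h2 h3 h4 b1 true b3) := by
  cases b3
  · exact cpt2_2 d x h1 h2 (h3.trans h4) b1
  · exact (cpt2_2 d x h1 h2 h3 b1).ext d (up_comp x h3 h4) _ _

theorem cpt3_3 (b1 b2 : Bool) : Cpt (up_comp x ((h1.trans h2).trans h3) h4)
    (T2 d x h1 h2 h3 b1 b2) (T0 d x h4) (T3 d x h1 h2 h3 h4 b1 b2 true) := cpt_ext d _ _

theorem cpt4_1 (b2 b3 b4 : Bool) : Cpt (up_comp x h1 (((h2.trans h3).trans h4).trans h5))
    (T0 d x h1) (T3 d x h2 h3 h4 h5 b2 b3 b4) (T4 d x h1 h2 h3 h4 h5 true b2 b3 b4) := by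
  cases b4
  · exact cpt3_1 d x h1 h2 h3 (h4.trans h5) b2 b3
  · exact (cpt3_1 d x h1 h2 h3 h4 b2 b3).ext d (up_comp x ((h2.trans h3).trans h4) h5) _ _

theorem cpt4_2 (b1 b3 b4 : Bool) : Cpt (up_comp x (h1.trans h2) ((h3.trans h4).trans h5))
    (T1 d x h1 h2 b1) (T2 d x h3 h4 h5 b3 b4) (T4 d x h1 h2 h3 h4 h5 b1 true b3 b4) := by
  cases b4
  · exact cpt3_2 d x h1 h2 h3 (h4.trans h5) b1 b3
  · exact (cpt3_2 d x h1 h2 h3 h4 b1 b3).ext d (up_comp x (h3.trans h4) h5) _ _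

theorem cpt4_3 (b1 b2 b4 : Bool) : Cpt (up_comp x ((h1.trans h2).trans h3) (h4.trans h5))
    (T2 d x h1 h2 h3 b1 b2) (T1 d x h4 h5 b4) (T4 d x h1 h2 h3 h4 h5 b1 b2 true b4) := by
  cases b4
  · exact cpt3_3 d x h1 h2 h3 (h4.trans h5) b1 b2
  · exact (cpt3_3 d x h1 h2 h3 h4 b1 b2).ext d (up_comp x h4 h5) _ _

theorem cpt4_4 (b1 b2 b3 : Bool) : Cpt (up_comp x (((h1.trans h2).trans h3).trans h4) h5)
    (T3 d x h1 h2 h3 h4 b1 b2 b3) (T0 d x h5) (T4 d x h1 h2 h3 h4 h5 b1 b2 b3 true) :=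
  cpt_ext d _ _

/-- the value of the cocycle on a chain of five vertices -/
noncomputable def cub : k := - cubeFun aTr (T3 d x h1 h2 h3 h4)

/-- **the cocycle identity** -/
theorem cub_cocycle :
    cub d x h2 h3 h4 h5 - cub d x (h1.trans h2) h3 h4 h5 + cub d x h1 (h2.trans h3) h4 h5
      - cub d x h1 h2 (h3.trans h4) h5 + cub d x h1 h2 h3 (h4.trans h5) - cub d x h1 h2 h3 h4
      = 0 := by
  have key := cubeFun_stokes (aTr (D := D)) (aTr_cocycle (M := KM (up x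
    ((((h1.trans h2).trans h3).trans h4).trans h5)))) (T4 d x h1 h2 h3 h4 h5)
  have a1 : cubeFun aTr (fun b2 b3 b4 => T4 d x h1 h2 h3 h4 h5 true b2 b3 b4) =
      cubeFun aTr (T3 d x h2 h3 h4 h5) := by
    rw [Cpt.cubeFun_add d (fun b2 b3 b4 => cpt4_1 d x h1 h2 h3 h4 h5 b2 b3 b4),
      cubeFun_indep0 (fun _ _ _ => T0 d x h1) (fun _ _ _ => rfl), add_zero]
  have a2 : cubeFun aTr (fun b1 b3 b4 => T4 d x h1 h2 h3 h4 h5 b1 true b3 b4) = 0 := by
    rw [Cpt.cubeFun_add d (fun b1 b3 b4 => cpt4_2 d x h1 h2 h3 h4 h5 b1 b3 b4),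
      cubeFun_indep0 (fun _ b3 b4 => T2 d x h3 h4 h5 b3 b4) (fun _ _ _ => rfl),
      cubeFun_indep2 (fun b1 _ _ => T1 d x h1 h2 b1) (fun _ _ _ => rfl), add_zero]
  have a3 : cubeFun aTr (fun b1 b2 b4 => T4 d x h1 h2 h3 h4 h5 b1 b2 true b4) = 0 := by
    rw [Cpt.cubeFun_add d (fun b1 b2 b4 => cpt4_3 d x h1 h2 h3 h4 h5 b1 b2 b4),
      cubeFun_indep0 (fun _ _ b4 => T1 d x h4 h5 b4) (fun _ _ _ => rfl),
      cubeFun_indep2 (fun b1 b2 _ => T2 d x h1 h2 h3 b1 b2) (fun _ _ _ => rfl), add_zero]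
  have a4 : cubeFun aTr (fun b1 b2 b3 => T4 d x h1 h2 h3 h4 h5 b1 b2 b3 true) =
      cubeFun aTr (T3 d x h1 h2 h3 h4) := by
    rw [Cpt.cubeFun_add d (fun b1 b2 b3 => cpt4_4 d x h1 h2 h3 h4 h5 b1 b2 b3),
      cubeFun_indep0 (fun _ _ _ => T0 d x h5) (fun _ _ _ => rfl), zero_add]
  have c1 : (fun b2 b3 b4 => T4 d x h1 h2 h3 h4 h5 false b2 b3 b4) =
      T3 d x (h1.trans h2) h3 h4 h5 := by
    funext b2 b3 b4
    cases b2 <;> cases b3 <;> cases b4 <;> rfl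
  have c2 : (fun b1 b3 b4 => T4 d x h1 h2 h3 h4 h5 b1 false b3 b4) =
      T3 d x h1 (h2.trans h3) h4 h5 := by
    funext b1 b3 b4
    cases b1 <;> cases b3 <;> cases b4 <;> rfl
  have c3 : (fun b1 b2 b4 => T4 d x h1 h2 h3 h4 h5 b1 b2 false b4) =
      T3 d x h1 h2 (h3.trans h4) h5 := by
    funext b1 b2 b4
    cases b1 <;> cases b2 <;> cases b4 <;> rfl
  have c4 : (fun b1 b2 b3 => T4 d x h1 h2 h3 h4 h5 b1 b2 b3 false) =
      T3 d x h1 h2 h3 (h4.trans h5) := by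
    funext b1 b2 b3
    cases b1 <;> cases b2 <;> cases b3 <;> rfl
  rw [a1, a2, a3, a4, c1, c2, c3, c4] at key
  simp only [cub]
  linear_combination (-1 : k) * key

end QData

end Vale.Agent.P178.H873
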