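import Mathlib

/-!
Steinberg groups over a ring: definition, basic calculus, and the theorem that every central
extension of `St ι A` splits if `ι` has at least five elements.
Commutators are `⁅a, b⁆ = a * b * a⁻¹ * b⁻¹`.
-/

namespace Vale.Agent.P178.H873

open scoped commutatorElement

variable {ι : Type*} {A B : Type*} [Ring A] [Ring B]

/-- Steinberg relators; `x_ii(a)` is declared trivial -/
inductive StRel (ι A : Type*) [Ring A] : FreeGroup (ι × ι × A) → Prop
  | diag (i : ι) (a : A) : StRel ι A (FreeGroup.of (i, i, a))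
  | add (i j : ι) (a b : A) : i ≠ j → StRel ι A
      (FreeGroup.of (i, j, a) * FreeGroup.of (i, j, b) * (FreeGroup.of (i, j, a + b))⁻¹)
  | comm (i j k : ι) (a b : A) : i ≠ j → j ≠ k → i ≠ k → StRel ι A
      (⁅FreeGroup.of (i, j, a), FreeGroup.of (j, k, b)⁆ * (FreeGroup.of (i, k, a * b))⁻¹)
  | disj (i j k l : ι) (a b : A) : i ≠ j → k ≠ l → j ≠ k → i ≠ l → StRel ι A
      ⁅FreeGroup.of (i, j, a), FreeGroup.of (k, l, b)⁆

/-- the Steinberg group -/
def St (ι A : Type*) [Ring A] : Type _ :=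
  PresentedGroup {r : FreeGroup (ι × ι × A) | StRel ι A r}

noncomputable instance : Group (St ι A) := inferInstanceAs (Group (PresentedGroup _))

namespace St

/-- the generators -/
noncomputable def x (i j : ι) (a : A) : St ι A := PresentedGroup.of (i, j, a)

theorem rel_eq_one {r : FreeGroup (ι × ι × A)} (h : StRel ι A r) :
    (PresentedGroup.mk {r : FreeGroup (ι × ι × A) | StRel ι A r} r : St ι A) = 1 :=
  PresentedGroup.one_of_mem h

@[simp] theorem x_diag (i : ι) (a : A) : (x i i a : St ι A) = 1 := rel_eq_one (.diag i a)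

theorem x_add (i j : ι) (a b : A) : (x i j (a + b) : St ι A) = x i j a * x i j b := by
  by_cases h : i = j
  · subst h; simp
  · have := rel_eq_one (.add i j a b h)
    simp only [map_mul, map_inv] at this
    exact (mul_inv_eq_one.1 this).symm

theorem x_comm {i j k : ι} (hij : i ≠ j) (hjk : j ≠ k) (hik : i ≠ k) (a b : A) :
    ⁅(x i j a : St ι A), x j k b⁆ = x i k (a * b) := by
  have := rel_eq_one (.comm i j k a b hij hjk hik)
  simp only [map_mul, map_commutatorElement, map_inv] at this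
  exact mul_inv_eq_one.1 this

theorem x_disj {i j k l : ι} (hjk : j ≠ k) (hil : i ≠ l) (a b : A) :
    ⁅(x i j a : St ι A), x k l b⁆ = 1 := by
  by_cases h1 : i = j
  · subst h1; simp
  by_cases h2 : k = l
  · subst h2; simp
  have := rel_eq_one (.disj i j k l a b h1 h2 hjk hil)
  simp only [map_commutatorElement] at this
  exact this

theorem commute_x {i j k l : ι} (hjk : j ≠ k) (hil : i ≠ l) (a b : A) :
    Commute (x i j a : St ι A) (x k l b) :=
  commutatorElement_eq_one_iff_commute.1 (x_disj hjk hil a b)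

@[simp] theorem x_zero (i j : ι) : (x i j (0 : A) : St ι A) = 1 := by
  have := x_add i j (0 : A) 0
  simpa using this

theorem x_neg (i j : ι) (a : A) : (x i j (-a) : St ι A) = (x i j a)⁻¹ := by
  have := x_add i j (-a) a
  simp only [neg_add_cancel, x_zero] at this
  exact eq_inv_of_mul_eq_one_left this.symm

/-- universal property -/
noncomputable def lift {H : Type*} [Group H] (X : ι → ι → A → H)
    (hd : ∀ i a, X i i a = 1)
    (ha : ∀ i j a b, i ≠ j → X i j (a + b) = X i j a * X i j b)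
    (hc : ∀ i j k a b, i ≠ j → j ≠ k → i ≠ k → ⁅X i j a, X j k b⁆ = X i k (a * b))
    (hc' : ∀ i j k l a b, i ≠ j → k ≠ l → j ≠ k → i ≠ l → ⁅X i j a, X k l b⁆ = 1) :
    St ι A →* H :=
  PresentedGroup.toGroup (f := fun p : ι × ι × A => X p.1 p.2.1 p.2.2) (by
    intro r hr
    cases hr with
    | diag i a => simp [hd]
    | add i j a b h => simp [ha i j a b h]
    | comm i j k a b h1 h2 h3 => simp [map_commutatorElement, hc i j k a b h1 h2 h3]
    | disj i j k l a b h1 h2 h3 h4 => simp [map_commutatorElement, hc' i j k l a b h1 h2 h3 h4])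

@[simp] theorem lift_x {H : Type*} [Group H] (X : ι → ι → A → H) (hd) (ha) (hc) (hc')
    (i j : ι) (a : A) : lift X hd ha hc hc' (x i j a) = X i j a := by
  exact PresentedGroup.toGroup.of _

/-- two homs agreeing on the generators are equal -/
theorem hom_ext {H : Type*} [Group H] {f g : St ι A →* H}
    (h : ∀ i j a, i ≠ j → f (x i j a) = g (x i j a)) : f = g := by
  refine PresentedGroup.ext ?_
  rintro ⟨i, j, a⟩
  by_cases hij : i = j
  · subst hij
    change f (x i i a) = g (x i i a)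
    simp only [x_diag, map_one]
  · exact h i j a hij

theorem closure_x : Subgroup.closure {g : St ι A | ∃ i j a, i ≠ j ∧ g = x i j a} = ⊤ := by
  rw [eq_top_iff]
  have h := PresentedGroup.closure_range_of {r : FreeGroup (ι × ι × A) | StRel ι A r}
  intro g _
  have hg : g ∈ Subgroup.closure (Set.range (PresentedGroup.of :
      ι × ι × A → PresentedGroup {r : FreeGroup (ι × ι × A) | StRel ι A r})) := by
    rw [h]; trivial
  refine (Subgroup.closure_le _).2 ?_ hg
  rintro _ ⟨⟨i, j, a⟩, rfl⟩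
  by_cases hij : i = j
  · subst hij
    have : (PresentedGroup.of (i, i, a) : St ι A) = 1 := x_diag i a
    change (PresentedGroup.of (i, i, a) : St ι A) ∈ _
    rw [this]; exact one_mem _
  · exact Subgroup.subset_closure ⟨i, j, a, hij, rfl⟩

/-- a subgroup containing all generators is everything -/
theorem eq_top_of_x_mem (S : Subgroup (St ι A)) (h : ∀ i j a, i ≠ j → x i j a ∈ S) : S = ⊤ := by
  rw [eq_top_iff, ← closure_x, Subgroup.closure_le]
  rintro _ ⟨i, j, a, hij, rfl⟩
  exact h i j a hij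

/-- functoriality -/
noncomputable def map (ψ : A →+* B) : St ι A →* St ι B :=
  lift (fun i j a => x i j (ψ a)) (by simp)
    (by intro i j a b _; simp [x_add])
    (by intro i j k a b h1 h2 h3; simp [x_comm h1 h2 h3])
    (by intro i j k l a b _ _ h3 h4; exact x_disj h3 h4 _ _)

@[simp] theorem map_x (ψ : A →+* B) (i j : ι) (a : A) :
    map ψ (x i j a : St ι A) = x i j (ψ a) := lift_x _ _ _ _ _ _ _ _

/-- the Steinberg group is perfect if there are at least three indices -/
theorem commutator_eq_top (h3 : ∀ i j : ι, ∃ q, q ≠ i ∧ q ≠ j) :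
    commutator (St ι A) = ⊤ := by
  refine eq_top_of_x_mem _ fun i j a hij => ?_
  obtain ⟨q, hqi, hqj⟩ := h3 i j
  have h := x_comm (A := A) hqi.symm hqj hij 1 a
  rw [one_mul] at h
  rw [← h, commutator_def]
  exact Subgroup.commutator_mem_commutator (Subgroup.mem_top _) (Subgroup.mem_top _)

/-! ### Central extensions split -/

section split

variable {Y : Type*} [Group Y]

/-- a group with a central homomorphism: commutators only depend on the images -/
theorem comm_congr {G : Type*} [Group G] {π : Y →* G} (hc : π.ker ≤ Subgroup.center Y)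
    {y y' z z' : Y} (hy : π y = π y') (hz : π z = π z') : ⁅y, z⁆ = ⁅y', z'⁆ := by
  have h1 : y * y'⁻¹ ∈ Subgroup.center Y := hc (by rw [MonoidHom.mem_ker]; simp [hy])
  have h2 : z * z'⁻¹ ∈ Subgroup.center Y := hc (by rw [MonoidHom.mem_ker]; simp [hz])
  obtain ⟨c, hcc, rfl⟩ : ∃ c ∈ Subgroup.center Y, y = c * y' := ⟨_, h1, by simp⟩
  obtain ⟨d, hdc, rfl⟩ : ∃ d ∈ Subgroup.center Y, z = d * z' := ⟨_, h2, by simp⟩
  rw [Subgroup.mem_center_iff] at hcc hdc
  rw [commutatorElement_def, commutatorElement_def, mul_inv_rev, mul_inv_rev]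
  have e1 : ∀ g, g * c⁻¹ = c⁻¹ * g := fun g => by
    rw [mul_inv_eq_iff_eq_mul, mul_assoc, hcc g, inv_mul_cancel_left]
  have e2 : ∀ g, g * d⁻¹ = d⁻¹ * g := fun g => by
    rw [mul_inv_eq_iff_eq_mul, mul_assoc, hdc g, inv_mul_cancel_left]
  calc c * y' * (d * z') * (y'⁻¹ * c⁻¹) * (z'⁻¹ * d⁻¹)
      = c * (y' * d) * z' * (y'⁻¹ * c⁻¹) * (z'⁻¹ * d⁻¹) := by group
    _ = c * (d * y') * z' * (c⁻¹ * y'⁻¹) * (d⁻¹ * z'⁻¹) := by rw [hdc y', e1 y'⁻¹, e2 z'⁻¹]
    _ = c * d * (y' * z' * c⁻¹) * (y'⁻¹ * d⁻¹) * z'⁻¹ := by group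
    _ = c * d * (c⁻¹ * (y' * z')) * (d⁻¹ * y'⁻¹) * z'⁻¹ := by rw [e1 (y' * z'), e2 y'⁻¹]
    _ = c * (d * c⁻¹) * (y' * z' * d⁻¹) * y'⁻¹ * z'⁻¹ := by group
    _ = c * (c⁻¹ * d) * (d⁻¹ * (y' * z')) * y'⁻¹ * z'⁻¹ := by rw [e1 d, e2 (y' * z')]
    _ = y' * z' * y'⁻¹ * z'⁻¹ := by group

/-- the Hall identity in the form needed -/
theorem hall {u v w : Y} (huw : Commute u w) (h1 : Commute ⁅u, v⁆ ⁅v, w⁆)
    (h2 : Commute ⁅v, w⁆ ⁅⁅u, v⁆, w⁆) : ⁅u, ⁅v, w⁆⁆ = ⁅⁅u, v⁆, w⁆ := by
  set a := ⁅u, v⁆ with ha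
  set b := ⁅v, w⁆ with hb
  have hua : u * v = a * v * u := by rw [ha, commutatorElement_def]; group
  have hvb : v * w = b * w * v := by rw [hb, commutatorElement_def]; group
  have e1 : u * b * w * v = a * b * w * v * u := by
    calc u * b * w * v = u * (b * w * v) := by group
      _ = u * (v * w) := by rw [hvb]
      _ = (u * v) * w := by group
      _ = a * v * u * w := by rw [hua]
      _ = a * v * (u * w) := by group
      _ = a * v * (w * u) := by rw [huw.eq]
      _ = a * (v * w) * u := by group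
      _ = a * (b * w * v) * u := by rw [hvb]
      _ = a * b * w * v * u := by group
  have e2 : u * b * w * v = u * b * u⁻¹ * w * a * v * u := by
    calc u * b * w * v = u * b * u⁻¹ * (u * w) * v := by group
      _ = u * b * u⁻¹ * (w * u) * v := by rw [huw.eq]
      _ = u * b * u⁻¹ * w * (u * v) := by group
      _ = u * b * u⁻¹ * w * (a * v * u) := by rw [hua]
      _ = u * b * u⁻¹ * w * a * v * u := by group
  have e3 : u * b * u⁻¹ * w * a = a * b * w := by
    have := e2.symm.trans e1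
    exact mul_right_cancel (mul_right_cancel this)
  have e4 : u * b * u⁻¹ = a * b * w * a⁻¹ * w⁻¹ := by
    rw [← e3]; group
  calc ⁅u, b⁆ = u * b * u⁻¹ * b⁻¹ := rfl
    _ = a * b * w * a⁻¹ * w⁻¹ * b⁻¹ := by rw [e4]
    _ = b * a * w * a⁻¹ * w⁻¹ * b⁻¹ := by rw [h1.eq]
    _ = b * ⁅a, w⁆ * b⁻¹ := by rw [commutatorElement_def]; group
    _ = ⁅a, w⁆ := by rw [h2.eq]; group

/-- `⁅u, v * w⁆ = ⁅u, v⁆ * ⁅u, w⁆` if `v` commutes with `⁅u, w⁆` -/
theorem comm_mul {u v w : Y} (h : Commute v ⁅u, w⁆) : ⁅u, v * w⁆ = ⁅u, v⁆ * ⁅u, w⁆ := by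
  have e : ⁅u, v * w⁆ = ⁅u, v⁆ * (v * ⁅u, w⁆ * v⁻¹) := by
    simp only [commutatorElement_def]; group
  rw [e, h.eq]; group

variable (h4 : ∀ i j k l : ι, ∃ q, q ≠ i ∧ q ≠ j ∧ q ≠ k ∧ q ≠ l)
variable {π : Y →* St ι A} (hπ : Function.Surjective π) (hc : π.ker ≤ Subgroup.center Y)

include h4 hπ hc

/-- lifts of commuting root elements commute -/
theorem lift_commute {i j k l : ι} (hij : i ≠ j) (hkl : k ≠ l) (hjk : j ≠ k) (hil : i ≠ l)
    (a b : A) {y z : Y} (hy : π y = x i j a) (hz : π z = x k l b) : Commute y z := by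
  obtain ⟨q, hqi, hqj, hqk, hql⟩ := h4 i j k l
  obtain ⟨u, hu⟩ := hπ (x i q 1)
  obtain ⟨v, hv⟩ := hπ (x q j a)
  have huv : π ⁅u, v⁆ = x i j a := by
    rw [map_commutatorElement, hu, hv, x_comm hqi.symm hqj hij, one_mul]
  -- z commutes with u and v up to the centre
  have hzu : π (z * u * z⁻¹) = π u := by
    have : Commute (x k l b : St ι A) (x i q 1) := commute_x (Ne.symm hil) hqk.symm b 1
    rw [map_mul, map_mul, map_inv, hz, hu, this.eq, mul_inv_cancel_right]
  have hzv : π (z * v * z⁻¹) = π v := by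
    have : Commute (x k l b : St ι A) (x q j a) := commute_x hql.symm hjk.symm b a
    rw [map_mul, map_mul, map_inv, hz, hv, this.eq, mul_inv_cancel_right]
  have h1 : z * ⁅u, v⁆ * z⁻¹ = ⁅u, v⁆ := by
    have : z * ⁅u, v⁆ * z⁻¹ = ⁅z * u * z⁻¹, z * v * z⁻¹⁆ := by
      simp only [commutatorElement_def]; group
    rw [this, comm_congr hc hzu hzv]
  have h2 : Commute z ⁅u, v⁆ := by
    rw [commute_iff_eq]
    exact mul_inv_eq_iff_eq_mul.1 h1
  have h3 : y * ⁅u, v⁆⁻¹ ∈ Subgroup.center Y := hc (by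
    rw [MonoidHom.mem_ker, map_mul, map_inv, huv, hy, mul_inv_cancel])
  have h4' : y = y * ⁅u, v⁆⁻¹ * ⁅u, v⁆ := by group
  rw [h4']
  have h5 : Commute (y * ⁅u, v⁆⁻¹) z := ((Subgroup.mem_center_iff.1 h3) z).symm
  exact h5.mul_left h2.symm

/-- the key identity -/
theorem key_hall {i j k h : ι} (hhi : h ≠ i) (hhj : h ≠ j) (hhk : h ≠ k) (hij : i ≠ j)
    (hik : i ≠ k) (hjk : j ≠ k) (a b : A) {u s t w : Y}
    (hu : π u = x h i 1) (hs : π s = x i k (a * b)) (ht : π t = x h j a) (hw : π w = x j k b) :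
    ⁅u, s⁆ = ⁅t, w⁆ := by
  obtain ⟨v, hv⟩ := hπ (x i j a)
  have huv : π ⁅u, v⁆ = x h j a := by
    rw [map_commutatorElement, hu, hv, x_comm hhi hij hhj, one_mul]
  have hvw : π ⁅v, w⁆ = x i k (a * b) := by
    rw [map_commutatorElement, hv, hw, x_comm hij hjk hik]
  have huvw : π ⁅⁅u, v⁆, w⁆ = x h k (a * b) := by
    rw [map_commutatorElement, huv, hw, x_comm hhj hjk hhk]
  have c1 : Commute u w := lift_commute h4 hπ hc hhi hjk hij hhk 1 b hu hw
  have c2 : Commute ⁅u, v⁆ ⁅v, w⁆ :=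
    lift_commute h4 hπ hc hhj hik hij.symm hhk a (a * b) huv hvw
  have c3 : Commute ⁅v, w⁆ ⁅⁅u, v⁆, w⁆ :=
    lift_commute h4 hπ hc hik hhk hhk.symm hik (a * b) (a * b) hvw huvw
  have := hall c1 c2 c3
  rw [comm_congr hc (rfl : π u = π u) (hs.trans hvw.symm), this,
    comm_congr hc (huv.trans ht.symm) (rfl : π w = π w)]

/-- every central extension of the Steinberg group on at least five indices splits -/
theorem central_split : ∃ s : St ι A →* Y, π.comp s = MonoidHom.id (St ι A) := by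
  classical
  let L : St ι A → Y := Function.surjInv hπ
  have hL : ∀ g, π (L g) = g := Function.surjInv_eq hπ
  have h2 : ∀ i j : ι, ∃ q, q ≠ i ∧ q ≠ j := fun i j => by
    obtain ⟨q, h1, h2, -, -⟩ := h4 i j j j
    exact ⟨q, h1, h2⟩
  choose pk hpk using h2
  let S : ι → ι → A → Y := fun i j a =>
    if i = j then 1 else ⁅L (x i (pk i j) 1), L (x (pk i j) j a)⁆
  -- the value computed with arbitrary middle index and arbitrary factorization
  have hS : ∀ {i j q : ι} (hij : i ≠ j) (hqi : q ≠ i) (hqj : q ≠ j) (a b : A) {t w : Y},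
      π t = x i q a → π w = x q j b → ⁅t, w⁆ = S i j (a * b) := by
    intro i j q hij hqi hqj a b t w ht hw
    have hS' : S i j (a * b) = ⁅L (x i (pk i j) 1), L (x (pk i j) j (a * b))⁆ := if_neg hij
    rw [hS']
    -- choose a middle index r different from everything
    obtain ⟨r, hri, hrj, hrq, hrp⟩ := h4 i j q (pk i j)
    obtain ⟨hpi, hpj⟩ := hpk i j
    -- [x_iq(a), x_qj(b)] = [x_ir(1), x_rj(ab)]
    have e1 : ⁅L (x i r 1), L (x r j (a * b))⁆ = ⁅t, w⁆ :=
      key_hall h4 hπ hc (h := i) (i := r) (j := q) (k := j) hri.symm hqi.symm hij hrq hrj hqj a b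
        (hL _) (hL _) ht hw
    -- [x_ip(1), x_pj(ab)] = [x_ir(1), x_rj(ab)]
    have e2 : ⁅L (x i r 1), L (x r j (1 * (a * b)))⁆ =
        ⁅L (x i (pk i j) 1), L (x (pk i j) j (a * b))⁆ :=
      key_hall h4 hπ hc (h := i) (i := r) (j := pk i j) (k := j) hri.symm hpi.symm hij hrp hrj
        hpj 1 (a * b) (hL _) (hL _) (hL _) (hL _)
    rw [one_mul] at e2
    rw [← e1, e2]
  have hπS : ∀ i j a, i ≠ j → π (S i j a) = x i j a := by
    intro i j a hij
    obtain ⟨hpi, hpj⟩ := hpk i j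
    have : S i j a = ⁅L (x i (pk i j) 1), L (x (pk i j) j a)⁆ := if_neg hij
    rw [this, map_commutatorElement, hL, hL, x_comm hpi.symm hpj hij, one_mul]
  refine ⟨lift S (fun i a => if_pos rfl) ?_ ?_ ?_, ?_⟩
  · intro i j a b hij
    obtain ⟨q, hqi, hqj⟩ : ∃ q, q ≠ i ∧ q ≠ j := ⟨_, hpk i j⟩
    have ha := hS hij hqi hqj 1 a (hL (x i q 1)) (hL (x q j a))
    have hb := hS hij hqi hqj 1 b (hL (x i q 1)) (hL (x q j b))
    have hab := hS hij hqi hqj 1 (a + b) (t := L (x i q 1)) (w := L (x q j a) * L (x q j b))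
      (hL _) (by rw [map_mul, hL, hL, x_add])
    rw [one_mul] at ha hb hab
    rw [← hab, ← ha, ← hb]
    refine comm_mul ?_
    refine lift_commute h4 hπ hc hqj hij hij.symm hqj a b (hL _) ?_
    rw [map_commutatorElement, hL, hL, x_comm hqi.symm hqj hij, one_mul]
  · intro i j k a b hij hjk hik
    exact hS hik hij.symm hjk a b (hπS i j a hij) (hπS j k b hjk)
  · intro i j k l a b hij hkl hjk hil
    exact commutatorElement_eq_one_iff_commute.2
      (lift_commute h4 hπ hc hij hkl hjk hil a b (hπS i j a hij) (hπS k l b hkl))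
  · refine hom_ext fun i j a hij => ?_
    rw [MonoidHom.comp_apply, lift_x, hπS i j a hij, MonoidHom.id_apply]

end split

end St

end Vale.Agent.P178.H873
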