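import Mathlib

/-!
The trace functional of a 3-cube of endomorphisms and Stokes' theorem on the 4-cube.
-/

namespace Vale.Agent.P178.H873

section Cube

variable {E M : Type*} [Ring E] [AddCommGroup M]

/-- the cup product cochain `tr ((b - a)₀ (c - b)₁ (d - c)₂)` -/
def cupTerm (tr : E →+ M) (a b c d : Fin 3 → E) : M :=
  tr ((b 0 - a 0) * (c 1 - b 1) * (d 2 - c 2))

/-- the functional of a 3-cube -/
def cubeTr (tr : E →+ M) (S : Bool → Bool → Bool → Fin 3 → E) : M :=
  cupTerm tr (S false false false) (S true false false) (S true true false) (S true true true)
  - cupTerm tr (S false false false) (S true false false) (S true false true) (S true true true)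
  - cupTerm tr (S false false false) (S false true false) (S true true false) (S true true true)
  + cupTerm tr (S false false false) (S false true false) (S false true true) (S true true true)
  + cupTerm tr (S false false false) (S false false true) (S true false true) (S true true true)
  - cupTerm tr (S false false false) (S false false true) (S false true true) (S true true true)

/-- the coboundary of the cup product -/
def d5 (tr : E →+ M) (a b c d e : Fin 3 → E) : M :=
  cupTerm tr b c d e - cupTerm tr a c d e + cupTerm tr a b d e - cupTerm tr a b c e
      + cupTerm tr a b c d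

/-- the cup product is a cocycle -/
theorem d5_eq_zero (tr : E →+ M) (a b c d e : Fin 3 → E) : d5 tr a b c d e = 0 := by
  simp only [d5, cupTerm, ← map_sub, ← map_add]
  rw [← map_zero tr]
  congr 1
  noncomm_ring

/-- **Stokes on the 4-cube** -/
theorem cubeTr_stokes (tr : E →+ M) (T : Bool → Bool → Bool → Bool → Fin 3 → E) :
    (cubeTr tr (fun a b c => T true a b c) - cubeTr tr (fun a b c => T false a b c))
    - (cubeTr tr (fun a b c => T a true b c) - cubeTr tr (fun a b c => T a false b c))
    + (cubeTr tr (fun a b c => T a b true c) - cubeTr tr (fun a b c => T a b false c))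
    - (cubeTr tr (fun a b c => T a b c true) - cubeTr tr (fun a b c => T a b c false)) = 0 := by
  have e : (cubeTr tr (fun a b c => T true a b c) - cubeTr tr (fun a b c => T false a b c))
    - (cubeTr tr (fun a b c => T a true b c) - cubeTr tr (fun a b c => T a false b c))
    + (cubeTr tr (fun a b c => T a b true c) - cubeTr tr (fun a b c => T a b false c))
    - (cubeTr tr (fun a b c => T a b c true) - cubeTr tr (fun a b c => T a b c false)) =
      d5 tr (T false false false false) (T true false false false) (T true true false false) (T true true true false) (T true true true true)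
      - d5 tr (T false false false false) (T true false false false) (T true true false false) (T true true false true) (T true true true true)
      - d5 tr (T false false false false) (T true false false false) (T true false true false) (T true true true false) (T true true true true)
      + d5 tr (T false false false false) (T true false false false) (T true false true false) (T true false true true) (T true true true true)
      + d5 tr (T false false false false) (T true false false false) (T true false false true) (T true true false true) (T true true true true)
      - d5 tr (T false false false false) (T true false false false) (T true false false true) (T true false true true) (T true true true true)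
      - d5 tr (T false false false false) (T false true false false) (T true true false false) (T true true true false) (T true true true true)
      + d5 tr (T false false false false) (T false true false false) (T true true false false) (T true true false true) (T true true true true)
      + d5 tr (T false false false false) (T false true false false) (T false true true false) (T true true true false) (T true true true true)
      - d5 tr (T false false false false) (T false true false false) (T false true true false) (T false true true true) (T true true true true)
      - d5 tr (T false false false false) (T false true false false) (T false true false true) (T true true false true) (T true true true true)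
      + d5 tr (T false false false false) (T false true false false) (T false true false true) (T false true true true) (T true true true true)
      + d5 tr (T false false false false) (T false false true false) (T true false true false) (T true true true false) (T true true true true)
      - d5 tr (T false false false false) (T false false true false) (T true false true false) (T true false true true) (T true true true true)
      - d5 tr (T false false false false) (T false false true false) (T false true true false) (T true true true false) (T true true true true)
      + d5 tr (T false false false false) (T false false true false) (T false true true false) (T false true true true) (T true true true true)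
      + d5 tr (T false false false false) (T false false true false) (T false false true true) (T true false true true) (T true true true true)
      - d5 tr (T false false false false) (T false false true false) (T false false true true) (T false true true true) (T true true true true)
      - d5 tr (T false false false false) (T false false false true) (T true false false true) (T true true false true) (T true true true true)
      + d5 tr (T false false false false) (T false false false true) (T true false false true) (T true false true true) (T true true true true)
      + d5 tr (T false false false false) (T false false false true) (T false true false true) (T true true false true) (T true true true true)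
      - d5 tr (T false false false false) (T false false false true) (T false true false true) (T false true true true) (T true true true true)
      - d5 tr (T false false false false) (T false false false true) (T false false true true) (T true false true true) (T true true true true)
      + d5 tr (T false false false false) (T false false false true) (T false false true true) (T false true true true) (T true true true true) := by
    simp only [cubeTr, d5]
    abel
  rw [e]
  simp only [d5_eq_zero, sub_zero, add_zero]

/-! ### vanishing and comparison for block-triangular families -/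

/-- if the family only depends on the last two directions, the functional vanishes -/
theorem cubeTr_of_indep0 (tr : E →+ M) (S : Bool → Bool → Bool → Fin 3 → E)
    (h : ∀ a b c, S a b c = S false b c) : cubeTr tr S = 0 := by
  have : ∀ b c, S true b c = S false b c := fun b c => h true b c
  simp only [cubeTr, cupTerm, this, sub_self, zero_mul, mul_zero, map_zero, add_zero]

/-- if the family does not depend on the last direction, the functional vanishes -/
theorem cubeTr_of_indep2 (tr : E →+ M) (S : Bool → Bool → Bool → Fin 3 → E)
    (h : ∀ a b c, S a b c = S a b false) : cubeTr tr S = 0 := by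
  have : ∀ b c, S b c true = S b c false := fun b c => h b c true
  simp only [cubeTr, cupTerm, this, sub_self, zero_mul, mul_zero, map_zero, add_zero]

/-- a ring homomorphism compatible with the traces -/
theorem cubeTr_map {E' : Type*} [Ring E'] (tr : E →+ M) (tr' : E' →+ M) (f : E →+* E')
    (hf : ∀ x, tr' (f x) = tr x) (S : Bool → Bool → Bool → Fin 3 → E) :
    cubeTr tr' (fun a b c l => f (S a b c l)) = cubeTr tr S := by
  simp only [cubeTr, cupTerm, ← map_sub, ← map_mul, hf]

/-- additivity in the trace functional -/
theorem cubeTr_add (tr tr' : E →+ M) (S : Bool → Bool → Bool → Fin 3 → E) :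
    cubeTr (tr + tr') S = cubeTr tr S + cubeTr tr' S := by
  simp only [cubeTr, cupTerm, AddMonoidHom.add_apply]
  abel

end Cube

section Trace

variable {k V N Q : Type*} [Field k] [AddCommGroup V] [Module k V] [FiniteDimensional k V]
  [AddCommGroup N] [Module k N] [AddCommGroup Q] [Module k Q]

/-- additivity of the trace in a short exact sequence -/
theorem trace_add {i : N →ₗ[k] V} {q : V →ₗ[k] Q} (hi : Function.Injective i)
    (hq : Function.Surjective q) (hex : Function.Exact i q)
    {f : V →ₗ[k] V} {fN : N →ₗ[k] N} {fQ : Q →ₗ[k] Q}
    (hN : f ∘ₗ i = i ∘ₗ fN) (hQ : q ∘ₗ f = fQ ∘ₗ q) :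
    LinearMap.trace k V f = LinearMap.trace k N fN + LinearMap.trace k Q fQ := by
  have : FiniteDimensional k N := FiniteDimensional.of_injective i hi
  have : FiniteDimensional k Q := Module.Finite.of_surjective q hq
  obtain ⟨s, hs⟩ := q.exists_rightInverse_of_surjective (LinearMap.range_eq_top.2 hq)
  obtain ⟨r₀, hr₀⟩ := i.exists_leftInverse_of_injective (LinearMap.ker_eq_bot.2 hi)
  -- the retraction onto `N` killing the section
  let r : V →ₗ[k] N := r₀ ∘ₗ (LinearMap.id - s ∘ₗ q)
  have hqs : ∀ x, q (s x) = x := fun x => LinearMap.congr_fun hs x
  have hri : ∀ x, r₀ (i x) = x := fun x => LinearMap.congr_fun hr₀ x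
  have hqi : ∀ x, q (i x) = 0 := fun x => hex.apply_apply_eq_zero x
  have hir : ∀ v, i (r v) = v - s (q v) := by
    intro v
    have : q (v - s (q v)) = 0 := by rw [map_sub, hqs, sub_self]
    obtain ⟨n, hn⟩ := (hex _).1 this
    change i (r₀ (v - s (q v))) = _
    rw [← hn, hri]
  have hid : f = f ∘ₗ (i ∘ₗ r) + f ∘ₗ (s ∘ₗ q) := by
    ext v
    simp only [LinearMap.add_apply, LinearMap.comp_apply, hir, map_sub, sub_add_cancel]
  have e1 : LinearMap.trace k V (f ∘ₗ (i ∘ₗ r)) = LinearMap.trace k N fN := by
    rw [← LinearMap.comp_assoc, LinearMap.trace_comp_comm', hN, ← LinearMap.comp_assoc]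
    congr 1
    ext n
    simp only [LinearMap.comp_apply]
    change r (i (fN n)) = fN n
    change r₀ (i (fN n) - s (q (i (fN n)))) = fN n
    rw [hqi, map_zero, sub_zero, hri]
  have e2 : LinearMap.trace k V (f ∘ₗ (s ∘ₗ q)) = LinearMap.trace k Q fQ := by
    rw [← LinearMap.comp_assoc, LinearMap.trace_comp_comm', ← LinearMap.comp_assoc, hQ]
    congr 1
    ext x
    simp only [LinearMap.comp_apply, hqs]
  conv_lhs => rw [hid]
  rw [map_add, e1, e2]

/-- the trace as an additive map on endomorphisms -/
noncomputable def trE (k V : Type*) [Field k] [AddCommGroup V] [Module k V] :
    Module.End k V →+ k := (LinearMap.trace k V).toAddMonoidHom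

omit [FiniteDimensional k V] in
theorem trE_apply (f : Module.End k V) : trE k V f = LinearMap.trace k V f := rfl

/-- additivity of the cup term in short exact sequences -/
theorem cupTerm_block {i : N →ₗ[k] V} {q : V →ₗ[k] Q} (hi : Function.Injective i)
    (hq : Function.Surjective q) (hex : Function.Exact i q)
    (a b c d : Fin 3 → Module.End k V) (a' b' c' d' : Fin 3 → Module.End k N)
    (a'' b'' c'' d'' : Fin 3 → Module.End k Q)
    (h0 : (b 0 - a 0) ∘ₗ i = i ∘ₗ (b' 0 - a' 0)) (h1 : (c 1 - b 1) ∘ₗ i = i ∘ₗ (c' 1 - b' 1))
    (h2 : (d 2 - c 2) ∘ₗ i = i ∘ₗ (d' 2 - c' 2))
    (g0 : q ∘ₗ (b 0 - a 0) = (b'' 0 - a'' 0) ∘ₗ q) (g1 : q ∘ₗ (c 1 - b 1) = (c'' 1 - b'' 1) ∘ₗ q)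
    (g2 : q ∘ₗ (d 2 - c 2) = (d'' 2 - c'' 2) ∘ₗ q) :
    cupTerm (trE k V) a b c d = cupTerm (trE k N) a' b' c' d' + cupTerm (trE k Q) a'' b'' c'' d''
      := by
  refine trace_add hi hq hex ?_ ?_
  · change ((b 0 - a 0) ∘ₗ (c 1 - b 1) ∘ₗ (d 2 - c 2)) ∘ₗ i =
      i ∘ₗ ((b' 0 - a' 0) ∘ₗ (c' 1 - b' 1) ∘ₗ (d' 2 - c' 2))
    rw [LinearMap.comp_assoc, LinearMap.comp_assoc, h2, ← LinearMap.comp_assoc (d' 2 - c' 2), h1,
      LinearMap.comp_assoc, ← LinearMap.comp_assoc _ i, h0, LinearMap.comp_assoc]
  · change q ∘ₗ ((b 0 - a 0) ∘ₗ (c 1 - b 1) ∘ₗ (d 2 - c 2)) =
      ((b'' 0 - a'' 0) ∘ₗ (c'' 1 - b'' 1) ∘ₗ (d'' 2 - c'' 2)) ∘ₗ q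
    rw [← LinearMap.comp_assoc, g0, LinearMap.comp_assoc, ← LinearMap.comp_assoc _ _ q, g1,
      LinearMap.comp_assoc, g2]
    rfl

/-- additivity of the cube functional in short exact sequences -/
theorem cubeTr_block {i : N →ₗ[k] V} {q : V →ₗ[k] Q} (hi : Function.Injective i)
    (hq : Function.Surjective q) (hex : Function.Exact i q)
    (S : Bool → Bool → Bool → Fin 3 → Module.End k V)
    (S' : Bool → Bool → Bool → Fin 3 → Module.End k N)
    (S'' : Bool → Bool → Bool → Fin 3 → Module.End k Q)
    (h : ∀ a b c a' b' c' l, (S a b c l - S a' b' c' l) ∘ₗ i = i ∘ₗ (S' a b c l - S' a' b' c' l))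
    (g : ∀ a b c a' b' c' l, q ∘ₗ (S a b c l - S a' b' c' l) =
      (S'' a b c l - S'' a' b' c' l) ∘ₗ q) :
    cubeTr (trE k V) S = cubeTr (trE k N) S' + cubeTr (trE k Q) S'' := by
  have key : ∀ a b c a' b' c' a₂ b₂ c₂ a₃ b₃ c₃,
      cupTerm (trE k V) (S a b c) (S a' b' c') (S a₂ b₂ c₂) (S a₃ b₃ c₃) =
      cupTerm (trE k N) (S' a b c) (S' a' b' c') (S' a₂ b₂ c₂) (S' a₃ b₃ c₃) +
      cupTerm (trE k Q) (S'' a b c) (S'' a' b' c') (S'' a₂ b₂ c₂) (S'' a₃ b₃ c₃) :=
    fun _ _ _ _ _ _ _ _ _ _ _ _ => cupTerm_block hi hq hex _ _ _ _ _ _ _ _ _ _ _ _
      (h _ _ _ _ _ _ _) (h _ _ _ _ _ _ _) (h _ _ _ _ _ _ _)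
      (g _ _ _ _ _ _ _) (g _ _ _ _ _ _ _) (g _ _ _ _ _ _ _)
  simp only [cubeTr, key]
  abel

end Trace

end Vale.Agent.P178.H873
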